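import Vale.Agent.P233.H103.Semi4

/-! The heat semigroup: gradient bound for bounded functions, test functions. -/

open MeasureTheory Filter Topology
open scoped ENNReal NNReal InnerProductSpace

namespace Vale.Agent.P233

variable {M : Type*} [MeasurableSpace M] {m : Measure M} {C : Calc m}

namespace IsDir

variable (hC : IsDir C) {s t lam : ℝ} {f g h a u : M →ₘ[m] ℝ}
include hC

/-- `∫ Δa u² - 2 ∫ a u Δu = 2 ∫ a Γ(u,u)` -/
theorem lap_sq_identity (ha : a ∈ C.A) (hu : u ∈ C.A) {a' u' : M →ₘ[m] ℝ} (haa : C.IsLap a a')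
    (huu : C.IsLap u u') :
    I (a' * u ^ 2) - 2 * I (a * u * u') = 2 * I (a * C.Γ u u) := by
  have hu2 := hC.sq_mem hu
  have h1 : I (C.Γ a (u ^ 2)) = -I (a' * u ^ 2) := haa.2.2 _ hu2.1
  have hau := hC.mul_mem_A ha hu
  have h2 : I (C.Γ u (a * u)) = -I (u' * (a * u)) := huu.2.2 _ hau.1
  have e1 : C.Γ a (u ^ 2) = 2 * u * C.Γ u a := by
    rw [hC.symm _ ha.1 _ hu2.1, hu2.2 a ha.1]
  have e2 : C.Γ u (a * u) = a * C.Γ u u + u * C.Γ u a := hC.Γ_mul_right ha hu hu.1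
  have i1 : MemLp (u * C.Γ u a) 1 m := mem_mul_top hu.2 (hC.Γ_mem1 hu.1 ha.1)
  have i2 : MemLp (a * C.Γ u u) 1 m := mem_mul_top ha.2 (hC.Γ_mem1 hu.1 hu.1)
  have e3 : (2 : M →ₘ[m] ℝ) * u * C.Γ u a = (2 : ℝ) • (u * C.Γ u a) := by
    rw [two_smul]; ring
  rw [e1, e3, I_smul] at h1
  rw [e2, I_add i2 i1] at h2
  have e4 : u' * (a * u) = a * u * u' := by ring
  rw [e4] at h2
  linarith

/-- derivative of `s ↦ ∫ P_s σ (P_{t-s} f)²` -/
theorem hasDeriv_PP (hσ : MemLp g 2 m) (hσt : MemLp g ∞ m) (hf : MemLp f 2 m) (hft : MemLp f ∞ m)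
    (hs : 0 < s) (hst : s < t) :
    HasDerivAt (fun s => I (C.P s g * C.P (t - s) f ^ 2))
      (2 * I (C.P s g * C.Γ (C.P (t - s) f) (C.P (t - s) f))) s := by
  obtain ⟨B, hB⟩ := mem_top_iff.1 hft
  obtain ⟨S, hS⟩ := mem_top_iff.1 hσt
  have hts : 0 < t - s := by linarith
  have ha := hC.P_isLap hs hσ
  have hu := hC.P_isLap hts hf
  have haA : C.P s g ∈ C.A := ⟨ha.1, hC.P_memTop hs.le hσ hσt⟩
  have huA : C.P (t - s) f ∈ C.A := ⟨hu.1, hC.P_memTop hts.le hf hft⟩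
  rw [← hC.lap_sq_identity haA huA ha hu, hasDerivAt_iff_tendsto_slope]
  -- the two difference quotients
  have q1 := hC.P_deriv hs hσ
  have q2 : Tendsto (fun r => I (((r - s)⁻¹ • (C.P (t - r) f - C.P (t - s) f)
      - -C.lap (C.P (t - s) f)) ^ 2)) (𝓝[≠] s) (𝓝 0) := by
    have h1 := hC.P_deriv hts hf
    have h2 : Tendsto (fun r => t - r) (𝓝[≠] s) (𝓝[≠] (t - s)) := by
      rw [tendsto_nhdsWithin_iff]
      refine ⟨((continuous_const.sub continuous_id).tendsto s).mono_left nhdsWithin_le_nhds, ?_⟩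
      filter_upwards [self_mem_nhdsWithin] with r hr
      simp only [Set.mem_compl_iff, Set.mem_singleton_iff] at hr ⊢
      intro h
      exact hr (by linarith)
    refine (h1.comp h2).congr fun r => ?_
    simp only [Function.comp]
    have e1 : t - r - (t - s) = -(r - s) := by ring
    rw [e1, inv_neg, neg_smul]
    have e2 : ∀ a b : M →ₘ[m] ℝ, (-a - b) ^ 2 = (a - -b) ^ 2 := fun a b => by ring
    rw [e2]
  -- uniform bounds (for `r` near `s`)
  have hev : ∀ᶠ r in 𝓝[≠] s, 0 < r ∧ r < t :=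
    nhdsWithin_le_nhds ((lt_mem_nhds hs).and (gt_mem_nhds hst))
  -- replace by globally bounded families
  set U : ℝ → M →ₘ[m] ℝ := fun r => if r < t then C.P (t - r) f else 0 with hU
  have hUs : U s = C.P (t - s) f := by rw [hU]; simp [hst]
  have hU2 : ∀ r, MemLp (U r) 2 m := fun r => by
    rw [hU]; dsimp only
    split_ifs with h
    · exact hC.P_mem2 _ hf
    · exact mem_zero
  have hB0 : ∀ᵐ x ∂m, 0 ≤ B := by filter_upwards [hB] with x hx using (abs_nonneg _).trans hx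
  have hUB : ∀ r, ∀ᵐ x ∂m, |U r x| ≤ B := fun r => by
    rw [hU]; dsimp only
    split_ifs with h
    · exact hC.P_bdd (by linarith) hf hB
    · filter_upwards [zero_ae (M := M) (m := m), hB0] with x hx h0
      rw [hx, abs_zero]; exact h0
  have hUlim : Tendsto (fun r => I ((U r - C.P (t - s) f) ^ 2)) (𝓝[≠] s) (𝓝 0) := by
    have h1 := hC.P_cont hf (t - s)
    have h2 : Tendsto (fun r => t - r) (𝓝[≠] s) (𝓝 (t - s)) :=
      ((continuous_const.sub continuous_id).tendsto s).mono_left nhdsWithin_le_nhds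
    refine (h1.comp h2).congr' ?_
    filter_upwards [hev] with r hr
    simp only [Function.comp, hU, if_pos hr.2]
  have hUsq : Tendsto (fun r => I ((U r ^ 2 - C.P (t - s) f ^ 2) ^ 2)) (𝓝[≠] s) (𝓝 0) := by
    have h1 := hUB s
    rw [hUs] at h1
    exact tendsto_sq_sq hUB h1 hU2 (hC.P_mem2 _ hf) hUlim
  have hsq2 : ∀ v : M →ₘ[m] ℝ, MemLp v 2 m → (∀ᵐ x ∂m, |v x| ≤ B) →
      MemLp (v ^ 2 : M →ₘ[m] ℝ) 2 m :=
    fun v hv hvB => by
      rw [sq]; exact mem_mul_top (mem_top_iff.2 ⟨B, hvB⟩) hv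
  have hus2 : MemLp (C.P (t - s) f ^ 2 : M →ₘ[m] ℝ) 2 m := by
    have h1 := hUB s
    rw [hUs] at h1
    exact hsq2 _ (hC.P_mem2 _ hf) h1
  -- first part
  have l1 : Tendsto (fun r => I (((r - s)⁻¹ • (C.P r g - C.P s g)) * U r ^ 2)) (𝓝[≠] s)
      (𝓝 (I (C.lap (C.P s g) * C.P (t - s) f ^ 2))) :=
    tendsto_I_mul (fun r => mem_smul _ (mem_sub (hC.P_mem2 r hσ) (hC.P_mem2 s hσ))) ha.2.1
      (fun r => hsq2 _ (hU2 r) (hUB r)) hus2 q1 hUsq
  -- second part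
  have hS' := hC.P_bdd hs.le hσ hS
  have l2a : Tendsto (fun r => I ((C.P s g * (U r + C.P (t - s) f)
      - C.P s g * ((2 : ℝ) • C.P (t - s) f)) ^ 2)) (𝓝[≠] s) (𝓝 0) := by
    refine tendsto_bdd_mul hS' (fun r => mem_add (hU2 r) (hC.P_mem2 _ hf))
      (mem_smul _ (hC.P_mem2 _ hf)) (hUlim.congr fun r => ?_)
    congr 2
    rw [two_smul]; ring
  have l2 : Tendsto (fun r => I ((C.P s g * (U r + C.P (t - s) f))
      * ((r - s)⁻¹ • (C.P (t - r) f - C.P (t - s) f)))) (𝓝[≠] s)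
      (𝓝 (I ((C.P s g * ((2 : ℝ) • C.P (t - s) f)) * -C.lap (C.P (t - s) f)))) :=
    tendsto_I_mul (fun r => mem_mul_top haA.2 (mem_add (hU2 r) (hC.P_mem2 _ hf)))
      (mem_mul_top haA.2 (mem_smul _ (hC.P_mem2 _ hf)))
      (fun r => mem_smul _ (mem_sub (hC.P_mem2 _ hf) (hC.P_mem2 _ hf))) (mem_neg hu.2.1) l2a q2
  have l3 := l1.add l2
  have e3 : I ((C.P s g * ((2 : ℝ) • C.P (t - s) f)) * -C.lap (C.P (t - s) f))
      = -(2 * I (C.P s g * C.P (t - s) f * C.lap (C.P (t - s) f))) := by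
    rw [mul_neg, I_neg, mul_smul_comm, smul_mul_assoc, I_smul]
  rw [e3, ← sub_eq_add_neg] at l3
  refine l3.congr' ?_
  filter_upwards [hev] with r hr
  have hUr : U r = C.P (t - r) f := by rw [hU]; simp [hr.2]
  rw [slope_def_module, hUr]
  have hr2 : MemLp (C.P (t - r) f ^ 2 : M →ₘ[m] ℝ) 2 m := by
    have := hsq2 _ (hU2 r) (hUB r)
    rwa [hUr] at this
  have e4 : ((r - s)⁻¹ • (C.P r g - C.P s g)) * C.P (t - r) f ^ 2
      + (C.P s g * (C.P (t - r) f + C.P (t - s) f))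
        * ((r - s)⁻¹ • (C.P (t - r) f - C.P (t - s) f))
      = (r - s)⁻¹ • (C.P r g * C.P (t - r) f ^ 2 - C.P s g * C.P (t - s) f ^ 2) := by
    rw [smul_mul_assoc, mul_smul_comm, ← smul_add]
    congr 1
    ring
  rw [← I_add (mem_mul_22 (mem_smul _ (mem_sub (hC.P_mem2 r hσ) (hC.P_mem2 s hσ))) hr2)
    (mem_mul_22 (mem_mul_top haA.2 (mem_add (hC.P_mem2 _ hf) (hC.P_mem2 _ hf)))
      (mem_smul _ (mem_sub (hC.P_mem2 _ hf) (hC.P_mem2 _ hf)))), e4, I_smul,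
    I_sub (mem_mul_22 (hC.P_mem2 r hσ) hr2) (mem_mul_22 (hC.P_mem2 s hσ) hus2)]
  rfl

/-- continuity of `s ↦ ∫ P_s σ (P_{t-s} f)²` -/
theorem continuous_PP (hσ : MemLp g 2 m) (hf : MemLp f 2 m) (hft : MemLp f ∞ m) :
    Continuous fun s => I (C.P s g * C.P (t - s) f ^ 2) := by
  obtain ⟨B, hB⟩ := mem_top_iff.1 hft
  have hPB : ∀ r, ∀ᵐ x ∂m, |C.P r f x| ≤ B := fun r => by
    have := hC.P_bdd (abs_nonneg r) hf hB
    rwa [hC.P_abs r hf] at this
  have hsq2 : ∀ r, MemLp (C.P r f ^ 2 : M →ₘ[m] ℝ) 2 m := fun r => by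
    rw [sq]; exact mem_mul_top (mem_top_iff.2 ⟨B, hPB r⟩) (hC.P_mem2 r hf)
  rw [continuous_iff_continuousAt]
  intro s
  have h2 : Tendsto (fun r => t - r) (𝓝 s) (𝓝 (t - s)) :=
    (continuous_const.sub continuous_id).tendsto s
  refine tendsto_I_mul (fun r => hC.P_mem2 r hσ) (hC.P_mem2 s hσ) (fun r => hsq2 _) (hsq2 _)
    (hC.P_cont hσ s) ?_
  exact tendsto_sq_sq (fun r => hPB (t - r)) (hPB _) (fun r => hC.P_mem2 _ hf) (hC.P_mem2 _ hf)
    ((hC.P_cont hf (t - s)).comp h2)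

end IsDir

namespace IsGamma

variable (hC : IsGamma C) {κ : ℝ} (hB : C.BEi κ)
variable {s t lam r : ℝ} {f g h σ ψ : M →ₘ[m] ℝ}
include hC hB

/-- reverse Poincaré inequality: `t Γ(P_t f) ≤ e^{2|κ|t} sup f² / 2` -/
theorem P_gradB (ht : 0 < t) (hf : MemLp f 2 m) {L : ℝ} (hL : ∀ᵐ x ∂m, |f x| ≤ L) :
    ∀ᵐ x ∂m, C.Γ (C.P t f) (C.P t f) x ≤ Real.exp (2 * |κ| * t) * L ^ 2 / (2 * t) := by
  have hD := hC.toIsDir
  have hft : MemLp f ∞ m := mem_top_iff.2 ⟨L, hL⟩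
  have hPW := hD.P_mem ht hf
  refine le_const_of_forall (hC.mem1 _ hPW) (by positivity) ?_
  intro ψ h0 h2 h1 htop
  -- lower bound of the derivative
  set A := I (ψ * C.Γ (C.P t f) (C.P t f)) with hA
  have hA0 : 0 ≤ A := I_nonneg (mul_nonneg h0 (hC.nonneg _ hPW))
  have hder : ∀ s ∈ Set.Ioo 0 t, 2 * Real.exp (-(2 * |κ| * t)) * A
      ≤ 2 * I (C.P s ψ * C.Γ (C.P (t - s) f) (C.P (t - s) f)) := by
    intro s hs
    have hts : 0 < t - s := by linarith [hs.2]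
    have e1 : C.P t f = C.P s (C.P (t - s) f) := by
      rw [hD.P_P hs.1.le hts.le hf]; congr 1; ring
    have h3 := P_gradW hC hB hs.1.le (hD.P_mem hts hf) h0 h2 htop
    rw [← e1] at h3
    set D := I (C.P s ψ * C.Γ (C.P (t - s) f) (C.P (t - s) f)) with hDdef
    have hD0 : 0 ≤ D := I_nonneg (mul_nonneg (hD.P_nonneg hs.1.le h2 h0)
      (hC.nonneg _ (hD.P_mem hts hf)))
    have h4 : Real.exp (-(2 * |κ| * t)) * Real.exp (-(2 * κ * s)) ≤ 1 := by
      rw [← Real.exp_add, Real.exp_le_one_iff]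
      have h5 : -κ * s ≤ |κ| * t := by
        have := neg_le_abs κ
        have h6 : 0 ≤ |κ| := abs_nonneg κ
        calc -κ * s ≤ |κ| * s := mul_le_mul_of_nonneg_right this hs.1.le
          _ ≤ |κ| * t := mul_le_mul_of_nonneg_left hs.2.le h6
      linarith
    have h5 : Real.exp (-(2 * |κ| * t)) * A ≤ D := by
      calc Real.exp (-(2 * |κ| * t)) * A
          ≤ Real.exp (-(2 * |κ| * t)) * (Real.exp (-(2 * κ * s)) * D) :=
            mul_le_mul_of_nonneg_left h3 (Real.exp_pos _).le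
        _ = (Real.exp (-(2 * |κ| * t)) * Real.exp (-(2 * κ * s))) * D := by ring
        _ ≤ 1 * D := mul_le_mul_of_nonneg_right h4 hD0
        _ = D := one_mul _
    linarith
  have hmv := Convex.mul_sub_le_image_sub_of_le_deriv (convex_Icc 0 t)
    (f := fun s => I (C.P s ψ * C.P (t - s) f ^ 2))
    (hD.continuous_PP h2 hf hft).continuousOn
    (fun s hs => by
      rw [interior_Icc] at hs
      exact (hD.hasDeriv_PP h2 htop hf hft hs.1 hs.2).differentiableAt.differentiableWithinAt)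
    (C := 2 * Real.exp (-(2 * |κ| * t)) * A)
    (fun s hs => by
      rw [interior_Icc] at hs
      rw [(hD.hasDeriv_PP h2 htop hf hft hs.1 hs.2).deriv]
      exact hder s hs) 0 (Set.left_mem_Icc.2 ht.le) t (Set.right_mem_Icc.2 ht.le) ht.le
  simp only [sub_self, sub_zero] at hmv
  rw [hD.P_zero_time hf, hD.P_zero_time h2] at hmv
  have h6 : 0 ≤ I (ψ * C.P t f ^ 2) := I_nonneg (mul_nonneg h0 (sq_nonneg' _))
  have hP0 := hD.P_nonneg ht.le h2 h0
  have hP1 := hD.P_L1_nonneg ht.le h2 h1 h0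
  have h7 : I (C.P t ψ * f ^ 2) ≤ L ^ 2 * I ψ := by
    calc I (C.P t ψ * f ^ 2) ≤ I (L ^ 2 • C.P t ψ) := by
          refine I_mono (mem_mul_top (hD.P_memTop ht.le h2 htop) (mem_sq hf))
            (mem_smul _ hP1.1) ?_
          rw [le_iff_ae]
          rw [nonneg_iff_ae] at hP0
          filter_upwards [hL, mul_ae (C.P t ψ) (f ^ 2), smul_ae (C.P t ψ) (L ^ 2), hP0, sq_ae f]
            with x a b c d e
          rw [b, c, e, mul_comm]
          refine mul_le_mul_of_nonneg_right ?_ d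
          rw [← sq_abs]
          exact pow_le_pow_left₀ (abs_nonneg _) a 2
      _ = L ^ 2 * I (C.P t ψ) := I_smul _
      _ ≤ L ^ 2 * I ψ := mul_le_mul_of_nonneg_left hP1.2 (sq_nonneg _)
  have h8 : 2 * Real.exp (-(2 * |κ| * t)) * A * t ≤ L ^ 2 * I ψ := by linarith
  rw [mul_comm (C.Γ (C.P t f) (C.P t f)), ← hA]
  have h9 : A = Real.exp (2 * |κ| * t) * (2 * Real.exp (-(2 * |κ| * t)) * A * t) / (2 * t) := by
    have : Real.exp (2 * |κ| * t) * Real.exp (-(2 * |κ| * t)) = 1 := by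
      rw [← Real.exp_add]; simp
    field_simp
    linear_combination (-A) * this
  rw [h9, div_mul_eq_mul_div, mul_assoc (Real.exp (2 * |κ| * t))]
  gcongr

/-- Lipschitz bound for all positive times -/
theorem P_Γ_top (ht : 0 < t) (hf : MemLp f 2 m) (hft : MemLp f ∞ m) :
    MemLp (C.Γ (C.P t f) (C.P t f)) ∞ m := by
  obtain ⟨L, hL⟩ := mem_top_iff.1 hft
  refine mem_top_iff.2 ⟨Real.exp (2 * |κ| * t) * L ^ 2 / (2 * t), ?_⟩
  filter_upwards [P_gradB hC hB ht hf hL, hC.toIsDir.Γ_nonneg_ae (hC.toIsDir.P_mem ht hf)]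
    with x a b
  rwa [abs_of_nonneg b]

omit hB in
theorem P_lap_mem (ht : 0 < t) (hf : MemLp f 2 m) : C.lap (C.P t f) ∈ C.W := by
  have hD := hC.toIsDir
  have h0 : 0 < t / 2 := by positivity
  have h := hD.P_lap_add h0.le h0 hf
  rw [add_halves] at h
  rw [h]
  exact hD.P_mem h0 (hD.P_isLap h0 hf).2.1

/-- `P_t f ∈ Test` for `f ∈ L² ∩ L^∞` -/
theorem P_test_pos (ht : 0 < t) (hf : MemLp f 2 m) (hft : MemLp f ∞ m) : C.P t f ∈ C.Test := by
  have hD := hC.toIsDir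
  rw [hC.mem_test_iff]
  exact ⟨hD.P_mem ht hf, hD.P_memTop ht.le hf hft, P_Γ_top hC hB ht hf hft, _,
    hD.P_isLap ht hf, P_lap_mem hC ht hf⟩

/-- `P_t` preserves the test functions -/
theorem P_test (ht : 0 ≤ t) (hf : f ∈ C.Test) : C.P t f ∈ C.Test := by
  have hD := hC.toIsDir
  have hf1 := hC.mem_test_iff.1 hf
  obtain ⟨hW, htop, hΓ, h, hh, hhW⟩ := hf1
  rw [hC.mem_test_iff]
  obtain ⟨L, hL⟩ := mem_top_iff.1 hΓ
  refine ⟨hD.P_memW t hW, hD.P_memTop ht (hC.memLp _ hW) htop, ?_, C.P t h,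
    hD.P_isLap_of t hh, hD.P_memW t hhW⟩
  have h1 := P_grad hC hB ht hW (L := L) (by filter_upwards [hL] with x a using (abs_le.1 a).2)
  refine mem_top_iff.2 ⟨Real.exp (-(2 * κ * t)) * L, ?_⟩
  filter_upwards [h1, hD.Γ_nonneg_ae (hD.P_memW t hW)] with x a b
  rwa [abs_of_nonneg b]

/-- `P_t` preserves the test functions with bounded Laplacian -/
theorem P_testI (ht : 0 ≤ t) (hf : f ∈ C.TestI) : C.P t f ∈ C.TestI := by
  have hD := hC.toIsDir
  have hL := hC.test_isLap hf.1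
  refine ⟨P_test hC hB ht hf.1, ?_⟩
  rw [hD.P_lap_of t hL]
  exact hD.P_memTop ht hL.2.1 hf.2

/-- double resolvents regularize `L² ∩ L^∞` to `TestI` -/
theorem testI_JJ [SigmaFinite m] (hr : 0 < r) (hr4 : 4 * |κ| * r ≤ 1) (hf : MemLp f 2 m)
    (hft : MemLp f ∞ m) : C.J r (C.J r f) ∈ C.TestI := by
  have hD := hC.toIsDir
  obtain ⟨B, hB0⟩ := mem_top_iff.1 hft
  have h1 := hD.J_mem2 hr hf
  have h1W := hD.J_mem hr hf
  have hb1 := hD.J_bdd hr hf hB0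
  have hb2 := hD.J_bdd hr h1 hb1
  have hlap := hD.J_isLap hr h1
  have hΓ := J2_Γ_bdd hC hB hr hr4 hf hB0
  have hW2 := hD.J_mem hr h1
  have htest : C.J r (C.J r f) ∈ C.Test := by
    rw [hC.mem_test_iff]
    refine ⟨hW2, mem_top_iff.2 ⟨B, hb2⟩, ?_, _, hlap, hD.smul_mem _ _ (hD.sub_mem hW2 h1W)⟩
    refine mem_top_iff.2 ⟨2 * r⁻¹ * B ^ 2, ?_⟩
    filter_upwards [hΓ, hD.Γ_nonneg_ae hW2] with x a b
    rwa [abs_of_nonneg b]
  refine ⟨htest, ?_⟩
  rw [hD.lap_eq hlap]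
  exact mem_smul _ (mem_sub (mem_top_iff.2 ⟨B, hb2⟩) (mem_top_iff.2 ⟨B, hb1⟩))

end IsGamma

end Vale.Agent.P233
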