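import Vale.Agent.P233.Gig.Defs
import Vale.Agent.P233.H103.Semi5

/-! The heat semigroup satisfies the interface `Heat` of `Gig/Defs.lean`. -/

open MeasureTheory Filter Topology Set
open scoped ENNReal NNReal InnerProductSpace

universe u

namespace Vale.Agent.P233

variable {M : Type u} [MeasurableSpace M] {m : Measure M} {C : Calc m}

/-- The heat semigroup, up to the field `testI'`. -/
theorem heat_of (hC : IsGamma C) {K : ℝ} (hB : C.BEi K) [SigmaFinite m]
    (hT : ∀ t, 0 < t → ∀ f : M →ₘ[m] ℝ, MemLp f 2 m → MemLp f ∞ m → C.P t f ∈ C.TestI) :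
    Heat C K C.P where
  mem t _ f hf := hC.toIsDir.P_mem2 t hf
  zero f hf := hC.toIsDir.P_zero_time hf
  semi s t hs ht f hf := (hC.toIsDir.P_P hs ht hf).symm
  add t _ f g hf hg := hC.toIsDir.P_add t hf hg
  smul t _ c f hf := hC.toIsDir.P_smul t c hf
  symm t _ f g hf hg := hC.toIsDir.P_symm t hf hg
  contr t _ f hf := hC.toIsDir.P_sq_le t hf
  nonneg t ht f hf h0 := hC.toIsDir.P_nonneg ht hf h0
  le t ht f hf c hc h := hC.toIsDir.P_le ht hf hc h
  L1 t ht f hf hf1 := (hC.toIsDir.P_L1 ht hf hf1).1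
  mass t ht f hf hf1 := IsGamma.P_mass hC hB ht hf hf1
  isLap t ht f hf := by
    refine ⟨hC.toIsDir.P_isLap ht hf, ?_⟩
    have h := hC.toIsDir.P_lap_sq_le ht hf
    rw [le_div_iff₀ (by positivity)]
    have h2 : 0 ≤ t ^ 2 * I (C.lap (C.P t f) ^ 2) := mul_nonneg (sq_nonneg _) (I_sq_nonneg _)
    linarith
  lapP t _ f h hfh := hC.toIsDir.P_isLap_of t hfh
  memW t ht f hf := ⟨hC.toIsDir.P_memW t hf, hC.toIsDir.P_E_le ht hf⟩
  cont f hf s _ := (hC.toIsDir.P_cont hf s).mono_left nhdsWithin_le_nhds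
  contW f hf s _ := (hC.toIsDir.P_contW hf s).mono_left nhdsWithin_le_nhds
  deriv f hf t ht := hC.toIsDir.P_deriv ht hf
  derivD f h hfh t ht := hC.toIsDir.P_derivD ht hfh
  derivW f h hfh hh t ht := hC.toIsDir.P_derivW ht hfh hh
  grad t ht f hf L hL := by
    have h := IsGamma.P_grad hC hB ht hf hL
    have e : -2 * K * t = -(2 * K * t) := by ring
    rw [e]; exact h
  gradW t ht f hf σ h2 htop h0 := by
    have h := IsGamma.P_gradW hC hB ht hf h0 h2 htop
    have e : -2 * K * t = -(2 * K * t) := by ring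
    rw [e]; exact h
  gradB := by
    refine ⟨Real.exp (2 * |K|) / 2, fun t ht ht1 f hf L hL => ?_⟩
    filter_upwards [IsGamma.P_gradB hC hB ht hf hL] with x hx
    refine hx.trans ?_
    have h1 : Real.exp (2 * |K| * t) ≤ Real.exp (2 * |K|) := by
      apply Real.exp_le_exp.2
      have := abs_nonneg K
      nlinarith
    have h2 : Real.exp (2 * |K|) / 2 * L ^ 2 / t = Real.exp (2 * |K|) * L ^ 2 / (2 * t) := by
      field_simp
    rw [h2]
    gcongr
  test t ht f hf := IsGamma.P_test hC hB ht hf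
  testI t ht f hf := IsGamma.P_testI hC hB ht hf
  testI' := hT

end Vale.Agent.P233
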