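import Mathlib.Analysis.InnerProductSpace.Basic
import Mathlib.Analysis.InnerProductSpace.Adjoint
import Mathlib.Analysis.SpecialFunctions.Exponential
import Mathlib.Analysis.Calculus.MeanValue
import Mathlib.Analysis.Calculus.Deriv.MeanValue
import Mathlib.Analysis.InnerProductSpace.Calculus
import Mathlib.MeasureTheory.Integral.IntervalIntegral.FundThmCalculus
import Mathlib.MeasureTheory.Integral.DominatedConvergence
import Mathlib.Tactic

/-! The semigroup of a densely defined nonpositive self-adjoint operator of a Hilbert space,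
constructed by the Yosida approximation. -/

open Filter Topology MeasureTheory
open scoped InnerProductSpace

namespace Vale.Agent.P233.Sg

variable {H : Type*} [NormedAddCommGroup H] [InnerProductSpace ℝ H]

/-- `L` is the graph of a densely defined nonpositive self-adjoint operator. -/
structure Gen (L : H → H → Prop) : Prop where
  add : ∀ {x y x' y' : H}, L x y → L x' y' → L (x + x') (y + y')
  smul : ∀ (c : ℝ) {x y : H}, L x y → L (c • x) (c • y)
  symm : ∀ {x y x' y' : H}, L x y → L x' y' → ⟪y, x'⟫_ℝ = ⟪x, y'⟫_ℝ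
  diss : ∀ {x y : H}, L x y → ⟪y, x⟫_ℝ ≤ 0
  surj : ∀ lam : ℝ, 0 < lam → ∀ x : H, ∃ u, L u (lam⁻¹ • (u - x))
  dense : ∀ x : H, ∀ ε > 0, ∃ u y : H, L u y ∧ ‖u - x‖ < ε

namespace Gen

variable {L : H → H → Prop} (G : Gen L)
include G

theorem sub {x y x' y' : H} (h : L x y) (h' : L x' y') : L (x - x') (y - y') := by
  have := G.add h (G.smul (-1) h')
  simpa [sub_eq_add_neg] using this

theorem orth {z : H} (h : ∀ x y, L x y → ⟪z, x⟫_ℝ = 0) : z = 0 := by
  by_contra hz
  obtain ⟨u, y, huy, hu⟩ := G.dense z ‖z‖ (norm_pos_iff.2 hz)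
  have h1 := h u y huy
  have h2 : ‖u - z‖ ^ 2 = ‖u‖ ^ 2 + ‖z‖ ^ 2 := by
    rw [norm_sub_sq_real, real_inner_comm, h1]; ring
  have h3 : ‖u - z‖ ^ 2 < ‖z‖ ^ 2 := by
    have := norm_nonneg (u - z)
    nlinarith
  nlinarith [sq_nonneg ‖u‖]

theorem unique {x y y' : H} (h : L x y) (h' : L x y') : y = y' := by
  have h1 : L 0 (y - y') := by simpa using G.sub h h'
  have h2 : y - y' = 0 := G.orth fun a b hab => by
    have := G.symm h1 hab
    simpa using this
  exact sub_eq_zero.1 h2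

/-- the resolvent `(1 - lam L)⁻¹` -/
noncomputable def res (lam : ℝ) (x : H) : H :=
  if h : 0 < lam then (G.surj lam h x).choose else 0

variable {lam mu : ℝ} {x y z u : H}

theorem res_spec (hl : 0 < lam) (x : H) : L (G.res lam x) (lam⁻¹ • (G.res lam x - x)) := by
  unfold res
  rw [dif_pos hl]
  exact (G.surj lam hl x).choose_spec

theorem eq_zero_of (hl : 0 < lam) {w : H} (h : L w (lam⁻¹ • w)) : w = 0 := by
  have h1 := G.diss h
  rw [real_inner_smul_left, real_inner_self_eq_norm_sq] at h1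
  have h2 : 0 < lam⁻¹ := inv_pos.2 hl
  have h3 : ‖w‖ ^ 2 ≤ 0 := by
    by_contra h4
    push Not at h4
    nlinarith [mul_pos h2 h4]
  have h4 : ‖w‖ = 0 := by nlinarith [norm_nonneg w, sq_nonneg ‖w‖]
  exact norm_eq_zero.1 h4

theorem res_unique (hl : 0 < lam) (h : L u (lam⁻¹ • (u - x))) : G.res lam x = u := by
  have h1 := G.sub (G.res_spec hl x) h
  rw [← smul_sub, sub_sub_sub_cancel_right] at h1
  exact sub_eq_zero.1 (G.eq_zero_of hl h1)

theorem res_of (hl : 0 < lam) (h : L x y) : G.res lam (x - lam • y) = x := by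
  apply G.res_unique hl
  rw [sub_sub_cancel, smul_smul, inv_mul_cancel₀ hl.ne', one_smul]
  exact h

theorem res_add (hl : 0 < lam) (x y : H) : G.res lam (x + y) = G.res lam x + G.res lam y := by
  apply G.res_unique hl
  have := G.add (G.res_spec hl x) (G.res_spec hl y)
  rw [← smul_add] at this
  rwa [add_sub_add_comm]

theorem res_smul (hl : 0 < lam) (c : ℝ) (x : H) : G.res lam (c • x) = c • G.res lam x := by
  apply G.res_unique hl
  have := G.smul c (G.res_spec hl x)
  rwa [smul_comm, smul_sub] at this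

theorem res_norm (hl : 0 < lam) (x : H) : ‖G.res lam x‖ ≤ ‖x‖ := by
  have h1 := G.diss (G.res_spec hl x)
  rw [real_inner_smul_left, inner_sub_left, real_inner_self_eq_norm_sq] at h1
  have h2 : 0 < lam⁻¹ := inv_pos.2 hl
  have h3 : ‖G.res lam x‖ ^ 2 ≤ ⟪x, G.res lam x⟫_ℝ := by
    by_contra h4
    push Not at h4
    nlinarith [mul_pos h2 (sub_pos.2 h4)]
  have h4 := real_inner_le_norm x (G.res lam x)
  have h5 := norm_nonneg (G.res lam x)
  by_contra h6
  push Not at h6
  nlinarith [norm_nonneg x]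

/-- the resolvent as a bounded operator -/
noncomputable def R (lam : ℝ) : H →L[ℝ] H :=
  if hl : 0 < lam then
    LinearMap.mkContinuous
      { toFun := G.res lam
        map_add' := G.res_add hl
        map_smul' := G.res_smul hl } 1 (fun x => by
          simpa using G.res_norm hl x)
  else 0

theorem R_apply (hl : 0 < lam) (x : H) : G.R lam x = G.res lam x := by
  unfold R
  rw [dif_pos hl]
  rfl

theorem R_spec (hl : 0 < lam) (x : H) : L (G.R lam x) (lam⁻¹ • (G.R lam x - x)) := by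
  rw [G.R_apply hl]
  exact G.res_spec hl x

theorem R_unique (hl : 0 < lam) (h : L u (lam⁻¹ • (u - x))) : G.R lam x = u := by
  rw [G.R_apply hl]
  exact G.res_unique hl h

theorem R_of (hl : 0 < lam) (h : L x y) : G.R lam (x - lam • y) = x := by
  rw [G.R_apply hl]
  exact G.res_of hl h

theorem R_norm (lam : ℝ) (x : H) : ‖G.R lam x‖ ≤ ‖x‖ := by
  by_cases hl : 0 < lam
  · rw [G.R_apply hl]
    exact G.res_norm hl x
  · unfold R
    rw [dif_neg hl]
    simp

theorem R_op (lam : ℝ) : ‖G.R lam‖ ≤ 1 :=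
  ContinuousLinearMap.opNorm_le_bound _ zero_le_one fun x => by simpa using G.R_norm lam x

theorem R_symm (hl : 0 < lam) (x y : H) : ⟪G.R lam x, y⟫_ℝ = ⟪x, G.R lam y⟫_ℝ := by
  have h := G.symm (G.R_spec hl x) (G.R_spec hl y)
  rw [real_inner_smul_left, real_inner_smul_right, inner_sub_left, inner_sub_right] at h
  have h2 := mul_left_cancel₀ (inv_pos.2 hl).ne' h
  linarith

/-- the resolvent commutes with `L` -/
theorem R_sub (hl : 0 < lam) (h : L x y) : G.R lam x = x + lam • G.R lam y := by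
  apply G.R_unique hl
  have h1 := G.add h (G.smul lam (G.R_spec hl y))
  rw [smul_smul, mul_inv_cancel₀ hl.ne', one_smul, add_sub_cancel] at h1
  rwa [add_sub_cancel_left, smul_smul, inv_mul_cancel₀ hl.ne', one_smul]

theorem R_L (hl : 0 < lam) (h : L x y) : L (G.R lam x) (G.R lam y) := by
  have h1 := G.R_spec hl x
  have h2 := G.R_sub hl h
  have h3 : lam⁻¹ • (G.R lam x - x) = G.R lam y := by
    rw [h2, add_sub_cancel_left, smul_smul, inv_mul_cancel₀ hl.ne', one_smul]
  rwa [h3] at h1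

theorem R_comm (hl : 0 < lam) (hm : 0 < mu) (x : H) :
    G.R lam (G.R mu x) = G.R mu (G.R lam x) := by
  symm
  apply G.R_unique hm
  have h := G.R_L hl (G.R_spec hm x)
  rwa [map_smul, map_sub] at h

theorem R_sub_norm (hl : 0 < lam) (h : L x y) : ‖G.R lam x - x‖ ≤ lam * ‖y‖ := by
  rw [G.R_sub hl h, add_sub_cancel_left, norm_smul, Real.norm_eq_abs, abs_of_pos hl]
  exact mul_le_mul_of_nonneg_left (G.R_norm lam y) hl.le

/-- strong convergence of the resolvents -/
theorem R_tendsto {ℓ : ℕ → ℝ} (hℓ : ∀ n, 0 < ℓ n) (h0 : Tendsto ℓ atTop (𝓝 0)) (x : H) :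
    Tendsto (fun n => G.R (ℓ n) x) atTop (𝓝 x) := by
  rw [Metric.tendsto_atTop]
  intro ε hε
  obtain ⟨u, y, huy, hu⟩ := G.dense x (ε / 3) (by positivity)
  have h1 : Tendsto (fun n => ℓ n * ‖y‖) atTop (𝓝 0) := by
    simpa using h0.mul_const ‖y‖
  obtain ⟨N, hN⟩ := (Metric.tendsto_atTop.1 h1) (ε / 3) (by positivity)
  refine ⟨N, fun n hn => ?_⟩
  have h2 := hN n hn
  rw [Real.dist_eq, sub_zero] at h2
  have h3 := (abs_lt.1 h2).2
  have h4 := G.R_sub_norm (hℓ n) huy
  have h5 : ‖G.R (ℓ n) (x - u)‖ ≤ ‖x - u‖ := G.R_norm _ _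
  rw [norm_sub_rev x u] at h5
  rw [dist_eq_norm]
  have h6 : G.R (ℓ n) x - x = G.R (ℓ n) (x - u) + (G.R (ℓ n) u - u) + (u - x) := by
    rw [map_sub]; abel
  rw [h6]
  calc _ ≤ ‖G.R (ℓ n) (x - u) + (G.R (ℓ n) u - u)‖ + ‖u - x‖ := norm_add_le _ _
    _ ≤ ‖G.R (ℓ n) (x - u)‖ + ‖G.R (ℓ n) u - u‖ + ‖u - x‖ := by
        gcongr; exact norm_add_le _ _
    _ < ε := by linarith

theorem closed [CompleteSpace H] {X Y : ℕ → H} (h : ∀ n, L (X n) (Y n))
    (hx : Tendsto X atTop (𝓝 x)) (hy : Tendsto Y atTop (𝓝 y)) : L x y := by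
  have h1 : ∀ n, G.R 1 (X n - Y n) = X n := fun n => by
    have := G.R_of one_pos (h n)
    rwa [one_smul] at this
  have h2 : Tendsto (fun n => G.R 1 (X n - Y n)) atTop (𝓝 (G.R 1 (x - y))) :=
    ((G.R 1).continuous.tendsto _).comp (hx.sub hy)
  have h3 : G.R 1 (x - y) = x := tendsto_nhds_unique (h2.congr h1) hx
  have h4 := G.R_spec one_pos (x - y)
  rw [h3, inv_one, one_smul, sub_sub_cancel] at h4
  exact h4

/-- the Yosida approximation -/
noncomputable def Y (lam : ℝ) : H →L[ℝ] H := lam⁻¹ • (G.R lam - 1)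

theorem Y_apply (lam : ℝ) (x : H) : G.Y lam x = lam⁻¹ • (G.R lam x - x) := rfl

theorem Y_L (hl : 0 < lam) (x : H) : L (G.R lam x) (G.Y lam x) := G.R_spec hl x

theorem Y_of (hl : 0 < lam) (h : L x y) : G.Y lam x = G.R lam y := by
  rw [Y_apply, G.R_sub hl h, add_sub_cancel_left, smul_smul, inv_mul_cancel₀ hl.ne', one_smul]

theorem Y_norm (hl : 0 < lam) (h : L x y) : ‖G.Y lam x‖ ≤ ‖y‖ := by
  rw [G.Y_of hl h]
  exact G.R_norm _ _

theorem Y_diss (hl : 0 < lam) (x : H) : ⟪G.Y lam x, x⟫_ℝ ≤ 0 := by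
  rw [Y_apply, real_inner_smul_left, inner_sub_left, real_inner_self_eq_norm_sq]
  have h1 := real_inner_le_norm (G.R lam x) x
  have h2 := G.R_norm lam x
  have h3 : ‖G.R lam x‖ * ‖x‖ ≤ ‖x‖ ^ 2 := by
    rw [sq]; exact mul_le_mul_of_nonneg_right h2 (norm_nonneg _)
  exact mul_nonpos_of_nonneg_of_nonpos (inv_pos.2 hl).le (by linarith)

theorem Y_symm (hl : 0 < lam) (x y : H) : ⟪G.Y lam x, y⟫_ℝ = ⟪x, G.Y lam y⟫_ℝ := by
  rw [Y_apply, Y_apply, real_inner_smul_left, real_inner_smul_right, inner_sub_left,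
    inner_sub_right, G.R_symm hl]

theorem Y_comm (hl : 0 < lam) (hm : 0 < mu) : Commute (G.Y lam) (G.Y mu) := by
  have h : Commute (G.R lam) (G.R mu) := by
    ext x
    exact G.R_comm hl hm x
  exact ((h.sub_left (Commute.one_left _)).sub_right (Commute.one_right _)).smul_left
    lam⁻¹ |>.smul_right mu⁻¹

/-! ### the exponentials of the Yosida approximations -/

section expo

variable [CompleteSpace H] {s t : ℝ}

/-- `exp (t Y)` -/
noncomputable def E (lam t : ℝ) : H →L[ℝ] H := NormedSpace.exp (t • G.Y lam)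

omit [CompleteSpace H] in
theorem E_zero (lam : ℝ) : G.E lam 0 = 1 := by
  simp [E, NormedSpace.exp_zero]

theorem E_add (lam s t : ℝ) : G.E lam (s + t) = G.E lam s * G.E lam t := by
  let _ : NormedAlgebra ℚ (H →L[ℝ] H) := NormedAlgebra.restrictScalars ℚ ℝ (H →L[ℝ] H)
  unfold E
  rw [add_smul]
  exact NormedSpace.exp_add_of_commute (((Commute.refl _).smul_left s).smul_right t)

omit [CompleteSpace H] in
theorem E_commY (lam t : ℝ) : Commute (G.E lam t) (G.Y lam) := by
  unfold E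
  exact (((Commute.refl (G.Y lam)).smul_left t)).exp_left

omit [CompleteSpace H] in
theorem E_comm {A : H →L[ℝ] H} (h : Commute A (G.Y lam)) (t : ℝ) : Commute A (G.E lam t) := by
  unfold E
  exact (h.smul_right t).exp_right

theorem E_deriv (lam t : ℝ) (x : H) :
    HasDerivAt (fun t => G.E lam t x) (G.Y lam (G.E lam t x)) t := by
  have h := hasDerivAt_exp_smul_const' (𝕂 := ℝ) (G.Y lam) t
  have h2 := (ContinuousLinearMap.apply ℝ H x).hasFDerivAt.comp_hasDerivAt t h
  exact h2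

theorem E_deriv' (lam t : ℝ) (x : H) :
    HasDerivAt (fun t => G.E lam t x) (G.E lam t (G.Y lam x)) t := by
  have h := G.E_deriv lam t x
  have h2 : G.Y lam (G.E lam t x) = G.E lam t (G.Y lam x) :=
    (DFunLike.congr_fun (G.E_commY lam t).eq x).symm
  rwa [h2] at h

theorem E_norm (hl : 0 < lam) (ht : 0 ≤ t) (x : H) : ‖G.E lam t x‖ ≤ ‖x‖ := by
  have h1 : AntitoneOn (fun t => ‖G.E lam t x‖ ^ 2) (Set.Ici 0) := by
    apply antitoneOn_of_deriv_nonpos (convex_Ici 0)
    · apply Continuous.continuousOn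
      have : Continuous fun t => G.E lam t x :=
        continuous_iff_continuousAt.2 fun t => (G.E_deriv lam t x).continuousAt
      exact this.norm.pow 2
    · intro t _
      exact ((G.E_deriv lam t x).norm_sq).differentiableAt.differentiableWithinAt
    · intro t _
      rw [((G.E_deriv lam t x).norm_sq).deriv, real_inner_comm]
      have := G.Y_diss hl (G.E lam t x)
      linarith
  have h2 := h1 (Set.mem_Ici.2 le_rfl) (Set.mem_Ici.2 ht) ht
  simp only [G.E_zero] at h2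
  rw [one_apply_eq_self] at h2
  exact (sq_le_sq₀ (norm_nonneg _) (norm_nonneg _)).1 h2

theorem E_diff (hl : 0 < lam) (hm : 0 < mu) (ht : 0 ≤ t) (x : H) :
    ‖G.E lam t x - G.E mu t x‖ ≤ t * ‖G.Y lam x - G.Y mu x‖ := by
  have hd : ∀ s, HasDerivAt (fun s => G.E lam s (G.E mu (t - s) x))
      (G.E lam s (G.E mu (t - s) (G.Y lam x - G.Y mu x))) s := by
    intro s
    have h1 : HasDerivAt (fun s => G.E lam s) (G.E lam s * G.Y lam) s :=
      hasDerivAt_exp_smul_const (𝕂 := ℝ) (G.Y lam) s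
    have h2 : HasDerivAt (fun s => G.E mu (t - s) x) (-(G.E mu (t - s) (G.Y mu x))) s := by
      have h3 := G.E_deriv' mu (t - s) x
      have h4 : HasDerivAt (fun s : ℝ => t - s) (-1) s := by
        simpa using (hasDerivAt_id s).const_sub t
      have h5 := h3.scomp s h4
      rw [neg_one_smul] at h5
      exact h5
    have h3 := h1.clm_apply h2
    have h4 : (G.E lam s * G.Y lam) (G.E mu (t - s) x) + (G.E lam s) (-(G.E mu (t - s) (G.Y mu x)))
        = G.E lam s (G.E mu (t - s) (G.Y lam x - G.Y mu x)) := by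
      rw [mul_apply_eq_comp]
      have h5 : G.Y lam (G.E mu (t - s) x) = G.E mu (t - s) (G.Y lam x) :=
        DFunLike.congr_fun (G.E_comm (G.Y_comm hl hm) (t - s)).eq x
      rw [h5, map_neg, map_sub, map_sub, ← sub_eq_add_neg]
    rw [h4] at h3
    exact h3
  have h := norm_image_sub_le_of_norm_deriv_le_segment' (f := fun s => G.E lam s (G.E mu (t - s) x))
    (a := 0) (b := t) (C := ‖G.Y lam x - G.Y mu x‖) (fun s _ => (hd s).hasDerivWithinAt)
    (fun s hs => (G.E_norm hl hs.1 _).trans (G.E_norm hm (by linarith [hs.2]) _)) t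
    (Set.right_mem_Icc.2 ht)
  simp only [sub_self, sub_zero, G.E_zero] at h
  rw [one_apply_eq_self, one_apply_eq_self, mul_comm] at h
  exact h

theorem E_symm (hl : 0 < lam) (t : ℝ) (x y : H) : ⟪G.E lam t x, y⟫_ℝ = ⟪x, G.E lam t y⟫_ℝ := by
  have h1 : IsSelfAdjoint (t • G.Y lam) := by
    rw [ContinuousLinearMap.isSelfAdjoint_iff_isSymmetric]
    intro a b
    simp only [ContinuousLinearMap.coe_coe, smul_apply]
    rw [real_inner_smul_left, real_inner_smul_right, G.Y_symm hl]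
  have h2 : IsSelfAdjoint (G.E lam t) := h1.exp
  exact (ContinuousLinearMap.isSelfAdjoint_iff_isSymmetric.1 h2) x y

/-- the energy method: `‖x‖² ≥ ‖u‖² - 2t⟪Yu,u⟫ + 2t²‖Yu‖²` for `u = exp(tY)x` -/
theorem E_reg (hl : 0 < lam) (ht : 0 ≤ t) (x : H) :
    ‖G.E lam t x‖ ^ 2 - 2 * t * ⟪G.Y lam (G.E lam t x), G.E lam t x⟫_ℝ
      + 2 * t ^ 2 * ‖G.Y lam (G.E lam t x)‖ ^ 2 ≤ ‖x‖ ^ 2 := by
  set F : ℝ → ℝ := fun t => ‖G.E lam t x‖ ^ 2 - 2 * t * ⟪G.Y lam (G.E lam t x), G.E lam t x⟫_ℝ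
      + 2 * t ^ 2 * ‖G.Y lam (G.E lam t x)‖ ^ 2 with hF
  have hd : ∀ t, HasDerivAt F
      (4 * t ^ 2 * ⟪G.Y lam (G.Y lam (G.E lam t x)), G.Y lam (G.E lam t x)⟫_ℝ) t := by
    intro t
    have h1 := G.E_deriv lam t x
    have h2 : HasDerivAt (fun t => G.Y lam (G.E lam t x)) (G.Y lam (G.Y lam (G.E lam t x))) t :=
      (G.Y lam).hasFDerivAt.comp_hasDerivAt t h1
    have h3 := h1.norm_sq
    have h4 := h2.norm_sq
    have h5 := h2.inner ℝ h1
    have h6 : HasDerivAt (fun t : ℝ => 2 * t) 2 t := by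
      simpa using (hasDerivAt_id t).const_mul (2 : ℝ)
    have h7 : HasDerivAt (fun t : ℝ => 2 * t ^ 2) (4 * t) t := by
      have h := (hasDerivAt_pow 2 t).const_mul (2 : ℝ)
      have h' : (2 : ℝ) * (((2 : ℕ) : ℝ) * t ^ (2 - 1)) = 4 * t := by
        norm_num; ring
      rwa [h'] at h
    have h8 := (h3.sub (h6.mul h5)).add (h7.mul h4)
    have h9 : (2 * ⟪G.E lam t x, G.Y lam (G.E lam t x)⟫_ℝ -
        (2 * ⟪G.Y lam (G.E lam t x), G.E lam t x⟫_ℝ +
          2 * t *
            (⟪G.Y lam (G.E lam t x), G.Y lam (G.E lam t x)⟫_ℝ +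
              ⟪G.Y lam (G.Y lam (G.E lam t x)), G.E lam t x⟫_ℝ)) +
      (4 * t * ‖G.Y lam (G.E lam t x)‖ ^ 2 +
        2 * t ^ 2 * (2 * ⟪G.Y lam (G.E lam t x), G.Y lam (G.Y lam (G.E lam t x))⟫_ℝ)))
        = 4 * t ^ 2 * ⟪G.Y lam (G.Y lam (G.E lam t x)), G.Y lam (G.E lam t x)⟫_ℝ := by
      rw [real_inner_comm (G.Y lam (G.E lam t x)) (G.E lam t x),
        G.Y_symm hl (G.Y lam (G.E lam t x)) (G.E lam t x),
        real_inner_comm (G.Y lam (G.Y lam (G.E lam t x))) (G.Y lam (G.E lam t x)),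
        real_inner_self_eq_norm_sq]
      ring
    rw [h9] at h8
    exact h8
  have h1 : AntitoneOn F (Set.Ici 0) := by
    apply antitoneOn_of_deriv_nonpos (convex_Ici 0)
    · exact (continuous_iff_continuousAt.2 fun t => (hd t).continuousAt).continuousOn
    · intro t _
      exact (hd t).differentiableAt.differentiableWithinAt
    · intro t _
      rw [(hd t).deriv]
      exact mul_nonpos_of_nonneg_of_nonpos (by positivity) (G.Y_diss hl _)
  have h2 := h1 (Set.mem_Ici.2 le_rfl) (Set.mem_Ici.2 ht) ht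
  simpa [hF, G.E_zero] using h2

end expo

end Gen

end Vale.Agent.P233.Sg
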