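import Vale.Agent.P233.H103.Semi0

/-! The semigroup of a densely defined nonpositive self-adjoint operator of a Hilbert space. -/

open Filter Topology MeasureTheory
open scoped InnerProductSpace

namespace Vale.Agent.P233.Sg

/-- `1 / (n + 1)` -/
noncomputable def ell (n : ℕ) : ℝ := ((n : ℝ) + 1)⁻¹

theorem ell_pos (n : ℕ) : 0 < ell n := by unfold ell; positivity

theorem ell_tendsto : Tendsto ell atTop (𝓝 0) :=
  tendsto_inv_atTop_zero.comp (tendsto_atTop_add_const_right _ 1 tendsto_natCast_atTop_atTop)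

variable {H : Type*} [NormedAddCommGroup H] [InnerProductSpace ℝ H] [CompleteSpace H]

omit [InnerProductSpace ℝ H] [CompleteSpace H] in
/-- Cauchy sequences of contractions on a dense set -/
theorem cauchy_of_dense [Module ℝ H] {T : ℕ → H →L[ℝ] H} {x : H}
    (hT : ∀ n x, ‖T n x‖ ≤ ‖x‖)
    (h : ∀ ε > 0, ∃ u, ‖u - x‖ < ε ∧ CauchySeq fun n => T n u) :
    CauchySeq fun n => T n x := by
  rw [Metric.cauchySeq_iff']
  intro ε hε
  obtain ⟨u, hu, hc⟩ := h (ε / 3) (by positivity)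
  obtain ⟨N, hN⟩ := (Metric.cauchySeq_iff'.1 hc) (ε / 3) (by positivity)
  refine ⟨N, fun n hn => ?_⟩
  have h1 := hN n hn
  rw [dist_eq_norm] at h1 ⊢
  have h2 := hT n (x - u)
  have h3 := hT N (u - x)
  rw [norm_sub_rev] at h2
  have h4 : T n x - T N x = T n (x - u) + (T n u - T N u) + T N (u - x) := by
    rw [map_sub, map_sub]; abel
  rw [h4]
  calc _ ≤ ‖T n (x - u) + (T n u - T N u)‖ + ‖T N (u - x)‖ := norm_add_le _ _
    _ ≤ ‖T n (x - u)‖ + ‖T n u - T N u‖ + ‖T N (u - x)‖ := by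
        gcongr; exact norm_add_le _ _
    _ < ε := by linarith

omit [InnerProductSpace ℝ H] [CompleteSpace H] in
/-- convergence of contractions on a dense set -/
theorem tendsto_of_dense [Module ℝ H] {ι : Type*} {l : Filter ι} {T : ι → H →L[ℝ] H}
    {T0 : H →L[ℝ] H} {x : H}
    (hT : ∀ n x, ‖T n x‖ ≤ ‖x‖) (hT0 : ∀ x, ‖T0 x‖ ≤ ‖x‖)
    (h : ∀ ε > 0, ∃ u, ‖u - x‖ < ε ∧ Tendsto (fun n => T n u) l (𝓝 (T0 u))) :
    Tendsto (fun n => T n x) l (𝓝 (T0 x)) := by
  rw [Metric.tendsto_nhds]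
  intro ε hε
  obtain ⟨u, hu, hc⟩ := h (ε / 3) (by positivity)
  filter_upwards [(Metric.tendsto_nhds.1 hc) (ε / 3) (by positivity)] with n h1
  rw [dist_eq_norm] at h1 ⊢
  have h2 := hT n (x - u)
  have h3 := hT0 (u - x)
  rw [norm_sub_rev] at h2
  have h4 : T n x - T0 x = T n (x - u) + (T n u - T0 u) + T0 (u - x) := by
    rw [map_sub, map_sub]; abel
  rw [h4]
  calc _ ≤ ‖T n (x - u) + (T n u - T0 u)‖ + ‖T0 (u - x)‖ := norm_add_le _ _
    _ ≤ ‖T n (x - u)‖ + ‖T n u - T0 u‖ + ‖T0 (u - x)‖ := by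
        gcongr; exact norm_add_le _ _
    _ < ε := by linarith

namespace Gen

variable {L : H → H → Prop} (G : Gen L) {lam mu s t : ℝ} {x y z u : H}
include G

omit [CompleteSpace H] in
theorem Y_tendsto {ℓ : ℕ → ℝ} (hℓ : ∀ n, 0 < ℓ n) (h0 : Tendsto ℓ atTop (𝓝 0)) (h : L x y) :
    Tendsto (fun n => G.Y (ℓ n) x) atTop (𝓝 y) := by
  refine (G.R_tendsto hℓ h0 y).congr fun n => ?_
  rw [G.Y_of (hℓ n) h]

theorem E_cauchy (ht : 0 ≤ t) (x : H) : CauchySeq fun n => G.E (ell n) t x := by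
  apply cauchy_of_dense (fun n x => G.E_norm (ell_pos n) ht x)
  intro ε hε
  obtain ⟨u, y, huy, hu⟩ := G.dense x ε hε
  refine ⟨u, hu, ?_⟩
  have h1 : CauchySeq fun n => t • G.Y (ell n) u :=
    ((G.Y_tendsto ell_pos ell_tendsto huy).const_smul t).cauchySeq
  rw [Metric.cauchySeq_iff'] at h1 ⊢
  intro ε hε
  obtain ⟨N, hN⟩ := h1 ε hε
  refine ⟨N, fun n hn => lt_of_le_of_lt ?_ (hN n hn)⟩
  rw [dist_eq_norm, dist_eq_norm, ← smul_sub, norm_smul, Real.norm_eq_abs, abs_of_nonneg ht]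
  exact G.E_diff (ell_pos n) (ell_pos N) ht u

theorem E_exists (t : ℝ) (x : H) : ∃ y, Tendsto (fun n => G.E (ell n) |t| x) atTop (𝓝 y) :=
  cauchySeq_tendsto_of_complete (G.E_cauchy (abs_nonneg t) x)

/-- the semigroup, as a function -/
noncomputable def Sf (t : ℝ) (x : H) : H := (G.E_exists t x).choose

theorem Sf_tendsto' (t : ℝ) (x : H) :
    Tendsto (fun n => G.E (ell n) |t| x) atTop (𝓝 (G.Sf t x)) := (G.E_exists t x).choose_spec

/-- the semigroup `exp (t L)`; `S (-t) = S t` by convention -/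
noncomputable def S (t : ℝ) : H →L[ℝ] H :=
  LinearMap.mkContinuous
    { toFun := G.Sf t
      map_add' := fun x y => by
        refine tendsto_nhds_unique (G.Sf_tendsto' t (x + y)) ?_
        simpa only [map_add] using (G.Sf_tendsto' t x).add (G.Sf_tendsto' t y)
      map_smul' := fun c x => by
        refine tendsto_nhds_unique (G.Sf_tendsto' t (c • x)) ?_
        simpa only [map_smul, RingHom.id_apply] using (G.Sf_tendsto' t x).const_smul c } 1
    (fun x => by
      rw [one_mul]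
      exact le_of_tendsto (G.Sf_tendsto' t x).norm
        (Eventually.of_forall fun n => G.E_norm (ell_pos n) (abs_nonneg t) x))

theorem S_tendsto' (t : ℝ) (x : H) :
    Tendsto (fun n => G.E (ell n) |t| x) atTop (𝓝 (G.S t x)) := G.Sf_tendsto' t x

theorem S_tendsto (ht : 0 ≤ t) (x : H) :
    Tendsto (fun n => G.E (ell n) t x) atTop (𝓝 (G.S t x)) := by
  have := G.S_tendsto' t x
  rwa [abs_of_nonneg ht] at this

theorem S_abs (t : ℝ) : G.S |t| = G.S t := by
  ext x
  refine tendsto_nhds_unique (G.S_tendsto' |t| x) ?_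
  simpa only [abs_abs] using G.S_tendsto' t x

theorem S_norm (t : ℝ) (x : H) : ‖G.S t x‖ ≤ ‖x‖ :=
  le_of_tendsto (G.S_tendsto' t x).norm
    (Eventually.of_forall fun n => G.E_norm (ell_pos n) (abs_nonneg t) x)

theorem S_zero (x : H) : G.S 0 x = x := by
  refine tendsto_nhds_unique (G.S_tendsto le_rfl x) ?_
  simp only [G.E_zero, one_apply_eq_self]
  exact tendsto_const_nhds

theorem S_add (hs : 0 ≤ s) (ht : 0 ≤ t) (x : H) : G.S (s + t) x = G.S s (G.S t x) := by
  refine tendsto_nhds_unique (G.S_tendsto (add_nonneg hs ht) x) ?_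
  have h1 := G.S_tendsto hs (G.S t x)
  have h2 : Tendsto (fun n => G.E (ell n) s (G.E (ell n) t x - G.S t x)) atTop (𝓝 0) := by
    rw [tendsto_zero_iff_norm_tendsto_zero]
    have h3 : Tendsto (fun n => ‖G.E (ell n) t x - G.S t x‖) atTop (𝓝 0) := by
      rw [← tendsto_zero_iff_norm_tendsto_zero]
      simpa using (G.S_tendsto ht x).sub_const (G.S t x)
    exact squeeze_zero (fun n => norm_nonneg _) (fun n => G.E_norm (ell_pos n) hs _) h3
  have h4 := h2.add h1
  rw [zero_add] at h4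
  refine h4.congr fun n => ?_
  rw [G.E_add, mul_apply_eq_comp, map_sub, sub_add_cancel]

theorem S_symm (t : ℝ) (x y : H) : ⟪G.S t x, y⟫_ℝ = ⟪x, G.S t y⟫_ℝ := by
  refine tendsto_nhds_unique ((G.S_tendsto' t x).inner tendsto_const_nhds) ?_
  refine ((tendsto_const_nhds (x := x)).inner (G.S_tendsto' t y)).congr fun n => ?_
  rw [G.E_symm (ell_pos n)]

/-- bounded operators commuting with the resolvents commute with the semigroup -/
theorem S_comm {A : H →L[ℝ] H} (hA : ∀ lam : ℝ, 0 < lam → Commute A (G.R lam)) (t : ℝ) (x : H) :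
    G.S t (A x) = A (G.S t x) := by
  refine tendsto_nhds_unique (G.S_tendsto' t (A x)) ?_
  refine ((A.continuous.tendsto _).comp (G.S_tendsto' t x)).congr fun n => ?_
  have h1 : Commute A (G.Y (ell n)) := by
    unfold Y
    exact (((hA _ (ell_pos n)).sub_right (Commute.one_right _))).smul_right _
  exact DFunLike.congr_fun (G.E_comm h1 |t|).eq x

theorem S_R (hl : 0 < lam) (t : ℝ) (x : H) : G.S t (G.R lam x) = G.R lam (G.S t x) := by
  apply G.S_comm
  intro mu hm
  ext x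
  exact G.R_comm hl hm x

theorem S_L (t : ℝ) (h : L x y) : L (G.S t x) (G.S t y) := by
  have h1 := G.R_of one_pos h
  rw [one_smul] at h1
  have h2 := G.R_spec one_pos (G.S t (x - y))
  rw [← G.S_R one_pos, h1, inv_one, one_smul, map_sub, sub_sub_cancel] at h2
  exact h2

theorem E_sub_norm (hl : 0 < lam) (hs : 0 ≤ s) (hst : s ≤ t) (h : L x y) :
    ‖G.E lam t x - G.E lam s x‖ ≤ (t - s) * ‖y‖ := by
  have h1 := norm_image_sub_le_of_norm_deriv_le_segment' (f := fun s => G.E lam s x)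
    (f' := fun s => G.E lam s (G.Y lam x))
    (a := s) (b := t) (C := ‖y‖) (fun r _ => (G.E_deriv' lam r x).hasDerivWithinAt)
    (fun r hr => (G.E_norm hl (hs.trans hr.1) _).trans (G.Y_norm hl h)) t
    (Set.right_mem_Icc.2 hst)
  rwa [mul_comm] at h1

theorem S_sub_norm' (hs : 0 ≤ s) (hst : s ≤ t) (h : L x y) :
    ‖G.S t x - G.S s x‖ ≤ (t - s) * ‖y‖ :=
  le_of_tendsto ((G.S_tendsto (hs.trans hst) x).sub (G.S_tendsto hs x)).norm
    (Eventually.of_forall fun n => G.E_sub_norm (ell_pos n) hs hst h)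

theorem S_sub_norm (s t : ℝ) (h : L x y) : ‖G.S t x - G.S s x‖ ≤ |t - s| * ‖y‖ := by
  have key : ∀ a b : ℝ, |a| ≤ |b| → ‖G.S b x - G.S a x‖ ≤ |b - a| * ‖y‖ := fun a b hab => by
    have h1 := G.S_sub_norm' (abs_nonneg a) hab h
    rw [G.S_abs, G.S_abs] at h1
    refine h1.trans (mul_le_mul_of_nonneg_right ?_ (norm_nonneg _))
    exact (abs_sub_abs_le_abs_sub b a)
  rcases le_total |s| |t| with h1 | h1
  · exact key s t h1
  · rw [norm_sub_rev, abs_sub_comm]
    exact key t s h1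

/-- strong continuity -/
theorem S_cont (x : H) : Continuous fun t => G.S t x := by
  rw [continuous_iff_continuousAt]
  intro t0
  apply tendsto_of_dense (T := fun t => G.S t) (fun t x => G.S_norm t x) (G.S_norm t0)
  intro ε hε
  obtain ⟨u, y, huy, hu⟩ := G.dense x ε hε
  refine ⟨u, hu, ?_⟩
  rw [tendsto_iff_norm_sub_tendsto_zero]
  have h1 : Tendsto (fun t => |t - t0| * ‖y‖) (𝓝 t0) (𝓝 0) := by
    have : Continuous fun t : ℝ => |t - t0| * ‖y‖ := by fun_prop
    simpa using this.tendsto t0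
  exact squeeze_zero (fun n => norm_nonneg _) (fun n => G.S_sub_norm t0 n huy) h1

/-- `S t x - x = ∫_0^t S s y ds` for `y = L x` -/
theorem S_integral (ht : 0 ≤ t) (h : L x y) :
    ∫ s in (0 : ℝ)..t, G.S s y = G.S t x - x := by
  have h1 : ∀ n, ∫ s in (0 : ℝ)..t, G.E (ell n) s (G.Y (ell n) x) = G.E (ell n) t x - x := by
    intro n
    have hc : Continuous fun s => G.E (ell n) s (G.Y (ell n) x) :=
      continuous_iff_continuousAt.2 fun s => (G.E_deriv (ell n) s _).continuousAt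
    have h2 := intervalIntegral.integral_eq_sub_of_hasDerivAt (a := 0) (b := t)
      (f := fun s => G.E (ell n) s x) (f' := fun s => G.E (ell n) s (G.Y (ell n) x))
      (fun s _ => G.E_deriv' (ell n) s x) (hc.intervalIntegrable _ _)
    rw [h2, G.E_zero, one_apply_eq_self]
  have h2 : Tendsto (fun n => G.E (ell n) t x - x) atTop (𝓝 (G.S t x - x)) :=
    (G.S_tendsto ht x).sub_const x
  refine tendsto_nhds_unique ?_ h2
  simp_rw [← h1]
  apply intervalIntegral.tendsto_integral_filter_of_dominated_convergence (fun _ => ‖y‖)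
  · refine Eventually.of_forall fun n => ?_
    have hc : Continuous fun s => G.E (ell n) s (G.Y (ell n) x) :=
      continuous_iff_continuousAt.2 fun s => (G.E_deriv (ell n) s _).continuousAt
    exact hc.aestronglyMeasurable
  · refine Eventually.of_forall fun n => ae_of_all _ fun s hs => ?_
    rw [Set.uIoc_of_le ht] at hs
    exact (G.E_norm (ell_pos n) hs.1.le _).trans (G.Y_norm (ell_pos n) h)
  · exact intervalIntegrable_const
  · refine ae_of_all _ fun s hs => ?_
    rw [Set.uIoc_of_le ht] at hs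
    have h3 := G.S_tendsto hs.1.le y
    have h4 : Tendsto (fun n => G.E (ell n) s (G.Y (ell n) x - y)) atTop (𝓝 0) := by
      rw [tendsto_zero_iff_norm_tendsto_zero]
      have h5 : Tendsto (fun n => ‖G.Y (ell n) x - y‖) atTop (𝓝 0) := by
        rw [← tendsto_zero_iff_norm_tendsto_zero]
        simpa using (G.Y_tendsto ell_pos ell_tendsto h).sub_const y
      exact squeeze_zero (fun n => norm_nonneg _) (fun n => G.E_norm (ell_pos n) hs.1.le _) h5
    have h6 := h4.add h3
    rw [zero_add] at h6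
    refine h6.congr fun n => ?_
    rw [map_sub, sub_add_cancel]

/-- the derivative of the semigroup on the domain -/
theorem S_deriv (ht : 0 < t) (h : L x y) : HasDerivAt (fun t => G.S t x) (G.S t y) t := by
  have h1 : HasDerivAt (fun t => ∫ s in (0 : ℝ)..t, G.S s y) (G.S t y) t :=
    intervalIntegral.integral_hasDerivAt_right ((G.S_cont y).intervalIntegrable _ _)
      ((G.S_cont y).stronglyMeasurableAtFilter _ _) (G.S_cont y).continuousAt
  have h2 : HasDerivAt (fun t => (∫ s in (0 : ℝ)..t, G.S s y) + x) (G.S t y) t :=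
    h1.add_const x
  refine h2.congr_of_eventuallyEq ?_
  filter_upwards [lt_mem_nhds ht] with r hr
  rw [G.S_integral (le_of_lt hr) h, sub_add_cancel]

theorem S_deriv_within (ht : 0 ≤ t) (h : L x y) :
    HasDerivWithinAt (fun t => G.S t x) (G.S t y) (Set.Ici 0) t := by
  have h1 : HasDerivAt (fun t => ∫ s in (0 : ℝ)..t, G.S s y) (G.S t y) t :=
    intervalIntegral.integral_hasDerivAt_right ((G.S_cont y).intervalIntegrable _ _)
      ((G.S_cont y).stronglyMeasurableAtFilter _ _) (G.S_cont y).continuousAt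
  have h2 : HasDerivWithinAt (fun t => (∫ s in (0 : ℝ)..t, G.S s y) + x) (G.S t y) (Set.Ici 0) t :=
    (h1.add_const x).hasDerivWithinAt
  refine h2.congr (fun r hr => ?_) ?_
  · rw [G.S_integral hr h, sub_add_cancel]
  · rw [G.S_integral ht h, sub_add_cancel]

/-- regularization: `S t x` is in the domain for `t > 0` -/
theorem S_reg (ht : 0 < t) (x : H) :
    ∃ y, L (G.S t x) y ∧ ‖G.S t x‖ ^ 2 - 2 * t * ⟪y, G.S t x⟫_ℝ + 2 * t ^ 2 * ‖y‖ ^ 2 ≤ ‖x‖ ^ 2 := by
  -- on the domain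
  have h1 : ∀ x y, L x y →
      ‖G.S t x‖ ^ 2 - 2 * t * ⟪G.S t y, G.S t x⟫_ℝ + 2 * t ^ 2 * ‖G.S t y‖ ^ 2 ≤ ‖x‖ ^ 2 := by
    intro x y h
    have h2 := G.S_tendsto ht.le x
    have h3 : Tendsto (fun n => G.Y (ell n) (G.E (ell n) t x)) atTop (𝓝 (G.S t y)) := by
      have h3 := G.S_tendsto ht.le y
      have h4 : Tendsto (fun n => G.E (ell n) t (G.Y (ell n) x - y)) atTop (𝓝 0) := by
        rw [tendsto_zero_iff_norm_tendsto_zero]
        have h5 : Tendsto (fun n => ‖G.Y (ell n) x - y‖) atTop (𝓝 0) := by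
          rw [← tendsto_zero_iff_norm_tendsto_zero]
          simpa using (G.Y_tendsto ell_pos ell_tendsto h).sub_const y
        exact squeeze_zero (fun n => norm_nonneg _) (fun n => G.E_norm (ell_pos n) ht.le _) h5
      have h6 := h4.add h3
      rw [zero_add] at h6
      refine h6.congr fun n => ?_
      rw [map_sub, sub_add_cancel]
      exact DFunLike.congr_fun (G.E_commY (ell n) t).eq x
    have h4 := ((h2.norm.pow 2).sub ((h3.inner h2).const_mul (2 * t))).add
      ((h3.norm.pow 2).const_mul (2 * t ^ 2))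
    exact le_of_tendsto h4 (Eventually.of_forall fun n => G.E_reg (ell_pos n) ht.le x)
  have h2 : ∀ x y, L x y → ‖G.S t y‖ ≤ t⁻¹ * ‖x‖ := by
    intro x y h
    have h3 := h1 x y h
    have h4 := G.diss (G.S_L t h)
    have h5 : t ^ 2 * ‖G.S t y‖ ^ 2 ≤ ‖x‖ ^ 2 := by
      have := sq_nonneg ‖G.S t x‖
      have h6 : 0 ≤ -(2 * t * ⟪G.S t y, G.S t x⟫_ℝ) := by
        have := mul_nonneg (by positivity : (0 : ℝ) ≤ 2 * t) (neg_nonneg.2 h4)
        linarith
      have h7 : 0 ≤ t ^ 2 * ‖G.S t y‖ ^ 2 := by positivity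
      linarith
    rw [← mul_pow] at h5
    have h6 := (sq_le_sq₀ (by positivity) (norm_nonneg _)).1 h5
    rw [inv_mul_eq_div, le_div_iff₀ ht, mul_comm]
    exact h6
  -- approximation
  have hdx : ∀ n : ℕ, ∃ u y : H, L u y ∧ ‖u - x‖ < ell n := fun n => G.dense x (ell n) (ell_pos n)
  choose u y huy hu using hdx
  have hux : Tendsto u atTop (𝓝 x) := by
    rw [tendsto_iff_norm_sub_tendsto_zero]
    exact squeeze_zero (fun n => norm_nonneg _) (fun n => (hu n).le) ell_tendsto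
  have hc : CauchySeq fun n => G.S t (y n) := by
    have h3 : CauchySeq u := hux.cauchySeq
    rw [Metric.cauchySeq_iff'] at h3 ⊢
    intro ε hε
    obtain ⟨N, hN⟩ := h3 (t * ε) (by positivity)
    refine ⟨N, fun n hn => ?_⟩
    have h4 := hN n hn
    rw [dist_eq_norm] at h4 ⊢
    rw [← map_sub]
    refine lt_of_le_of_lt (h2 _ _ (G.sub (huy n) (huy N))) ?_
    rw [inv_mul_lt_iff₀ ht]
    exact h4
  obtain ⟨w, hw⟩ := cauchySeq_tendsto_of_complete hc
  have hSu : Tendsto (fun n => G.S t (u n)) atTop (𝓝 (G.S t x)) :=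
    ((G.S t).continuous.tendsto _).comp hux
  refine ⟨w, G.closed (fun n => G.S_L t (huy n)) hSu hw, ?_⟩
  have h4 := ((hSu.norm.pow 2).sub ((hw.inner hSu).const_mul (2 * t))).add
      ((hw.norm.pow 2).const_mul (2 * t ^ 2))
  exact le_of_tendsto_of_tendsto h4 (hux.norm.pow 2) (Eventually.of_forall fun n => h1 _ _ (huy n))

/-- comparison of one step -/
theorem S_sub_R (ht : 0 < t) (h : L x y) (h' : L y z) :
    ‖G.S t x - G.R t x‖ ≤ 2 * t ^ 2 * ‖z‖ := by
  have h1 : ‖∫ s in (0 : ℝ)..t, (G.S s y - y)‖ ≤ (t * ‖z‖) * |t - 0| := by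
    apply intervalIntegral.norm_integral_le_of_norm_le_const
    intro s hs
    rw [Set.uIoc_of_le ht.le] at hs
    have h2 := G.S_sub_norm 0 s h'
    rw [G.S_zero, sub_zero, abs_of_pos hs.1] at h2
    exact h2.trans (mul_le_mul_of_nonneg_right hs.2 (norm_nonneg _))
  rw [intervalIntegral.integral_sub ((G.S_cont y).intervalIntegrable _ _)
    (intervalIntegrable_const), G.S_integral ht.le h, intervalIntegral.integral_const, sub_zero,
    abs_of_pos ht] at h1
  have h2 : G.R t x - x - t • y = t • (G.R t y - y) := by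
    rw [G.R_sub ht h, add_sub_cancel_left, smul_sub]
  have h3 : ‖G.R t x - x - t • y‖ ≤ t * (t * ‖z‖) := by
    rw [h2, norm_smul, Real.norm_eq_abs, abs_of_pos ht]
    exact mul_le_mul_of_nonneg_left (G.R_sub_norm ht h') ht.le
  have h4 : G.S t x - G.R t x = (G.S t x - x - t • y) - (G.R t x - x - t • y) := by abel
  rw [h4]
  calc _ ≤ ‖G.S t x - x - t • y‖ + ‖G.R t x - x - t • y‖ := norm_sub_le _ _
    _ ≤ t * ‖z‖ * t + t * (t * ‖z‖) := add_le_add h1 h3
    _ = 2 * t ^ 2 * ‖z‖ := by ring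

theorem euler_bound (ht : 0 < t) (h : L x y) (h' : L y z) (n : ℕ) :
    ‖G.S (n * t) x - (G.R t)^[n] x‖ ≤ n * (2 * t ^ 2 * ‖z‖) := by
  induction n with
  | zero => simp [G.S_zero]
  | succ n ih =>
    rw [Function.iterate_succ_apply']
    have h1 : G.S ((n + 1 : ℕ) * t) x = G.S t (G.S (n * t) x) := by
      rw [← G.S_add ht.le (by positivity)]
      congr 2
      push_cast; ring
    have h2 : G.S t (G.S (n * t) x) - G.R t ((G.R t)^[n] x)
        = (G.S t (G.S (n * t) x) - G.R t (G.S (n * t) x))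
          + G.R t (G.S (n * t) x - (G.R t)^[n] x) := by
      rw [map_sub]; abel
    rw [h1, h2]
    have h3 := G.S_sub_R ht (G.S_L (n * t) h) (G.S_L (n * t) h')
    have h4 := G.S_norm (n * t) z
    calc _ ≤ ‖G.S t (G.S (n * t) x) - G.R t (G.S (n * t) x)‖
          + ‖G.R t (G.S (n * t) x - (G.R t)^[n] x)‖ := norm_add_le _ _
      _ ≤ 2 * t ^ 2 * ‖z‖ + n * (2 * t ^ 2 * ‖z‖) := by
          refine add_le_add (h3.trans ?_) ((G.R_norm t _).trans ih)
          gcongr
      _ = _ := by push_cast; ring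

omit [CompleteSpace H] in
theorem dense2 (x : H) {ε : ℝ} (hε : 0 < ε) : ∃ u y z : H, L u y ∧ L y z ∧ ‖u - x‖ < ε := by
  obtain ⟨v, w, hvw, hv⟩ := G.dense x (ε / 2) (by positivity)
  have h1 := G.R_tendsto ell_pos ell_tendsto v
  obtain ⟨N, hN⟩ := (Metric.tendsto_atTop.1 h1) (ε / 2) (by positivity)
  have h2 := hN N le_rfl
  rw [dist_eq_norm] at h2
  refine ⟨G.R (ell N) v, G.R (ell N) w, _, G.R_L (ell_pos N) hvw, G.R_spec (ell_pos N) w, ?_⟩
  calc ‖G.R (ell N) v - x‖ = ‖(G.R (ell N) v - v) + (v - x)‖ := by congr 1; abel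
    _ ≤ ‖G.R (ell N) v - v‖ + ‖v - x‖ := norm_add_le _ _
    _ < ε := by linarith

omit [CompleteSpace H] in
theorem R_iter_norm (lam : ℝ) (n : ℕ) (x : H) : ‖(G.R lam)^[n] x‖ ≤ ‖x‖ := by
  induction n with
  | zero => simp
  | succ n ih =>
    rw [Function.iterate_succ_apply']
    exact (G.R_norm lam _).trans ih

/-- the implicit Euler scheme converges -/
theorem S_euler (ht : 0 < t) (x : H) :
    Tendsto (fun n : ℕ => (G.R (t / ((n : ℝ) + 1)))^[n + 1] x) atTop (𝓝 (G.S t x)) := by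
  have h0 : ∀ (n : ℕ) (x : H), (G.R (t / ((n : ℝ) + 1)) ^ (n + 1)) x
      = (G.R (t / ((n : ℝ) + 1)))^[n + 1] x := fun n x => by
    rw [FunLike.coe_pow_eq_iterate]
  simp_rw [← h0]
  apply tendsto_of_dense (T := fun n : ℕ => G.R (t / ((n : ℝ) + 1)) ^ (n + 1))
    (fun n x => by rw [h0]; exact G.R_iter_norm _ _ _) (G.S_norm t)
  intro ε hε
  obtain ⟨u, y, z, huy, hyz, hu⟩ := G.dense2 x hε
  refine ⟨u, hu, ?_⟩
  rw [tendsto_iff_norm_sub_tendsto_zero]
  have h1 : Tendsto (fun n : ℕ => 2 * t ^ 2 * ‖z‖ * ell n) atTop (𝓝 0) := by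
    simpa using ell_tendsto.const_mul (2 * t ^ 2 * ‖z‖)
  refine squeeze_zero (fun n => norm_nonneg _) (fun n => ?_) h1
  rw [h0, norm_sub_rev]
  have hn : (0 : ℝ) < (n : ℝ) + 1 := by positivity
  have h2 := G.euler_bound (div_pos ht hn) huy hyz (n + 1)
  have h3 : ((n + 1 : ℕ) : ℝ) * (t / ((n : ℝ) + 1)) = t := by
    push_cast
    field_simp
  rw [h3] at h2
  refine h2.trans (le_of_eq ?_)
  unfold ell
  push_cast
  field_simp

/-- closed sets invariant under the resolvents are invariant under the semigroup -/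
theorem S_mem {K : Set H} (hK : IsClosed K) (ht : 0 ≤ t)
    (hR : ∀ lam : ℝ, 0 < lam → lam ≤ t → ∀ x ∈ K, G.R lam x ∈ K) (hx : x ∈ K) : G.S t x ∈ K := by
  rcases ht.eq_or_lt with h | h
  · rw [← h, G.S_zero]; exact hx
  · refine hK.mem_of_tendsto (G.S_euler h x) (Eventually.of_forall fun n => ?_)
    have hn : (0 : ℝ) < (n : ℝ) + 1 := by positivity
    have h1 : 0 < t / ((n : ℝ) + 1) := div_pos h hn
    have h2 : t / ((n : ℝ) + 1) ≤ t := div_le_self h.le (by linarith [n.cast_nonneg (α := ℝ)])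
    have h3 : ∀ k : ℕ, (G.R (t / ((n : ℝ) + 1)))^[k] x ∈ K := fun k => by
      induction k with
      | zero => simpa using hx
      | succ k ih =>
        rw [Function.iterate_succ_apply']
        exact hR _ h1 h2 _ ih
    exact h3 (n + 1)

end Gen

end Vale.Agent.P233.Sg
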