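import Vale.Agent.P233.Bd3.B1
import Vale.Agent.P233.H103.Semi1

/-! The heat semigroup `C.P t` of a Dirichlet calculus: algebraic part and `L²` theory. -/

open MeasureTheory Filter Topology
open scoped ENNReal NNReal InnerProductSpace

namespace Vale.Agent.P233

variable {M : Type*} [MeasurableSpace M] {m : Measure M} {C : Calc m}

/-! ### `L²` classes -/

theorem toLp_val {f : M →ₘ[m] ℝ} (hf : MemLp f 2 m) : (hf.toLp (f : M → ℝ)).1 = f :=
  AEEqFun.mk_coeFn f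

theorem mem_val (x : Lp ℝ 2 m) : MemLp x.1 2 m := Lp.memLp x

theorem val_toLp (x : Lp ℝ 2 m) : (mem_val x).toLp (x.1 : M → ℝ) = x := Subtype.ext (toLp_val _)

theorem inner_val (x y : Lp ℝ 2 m) : ⟪x, y⟫_ℝ = I (x.1 * y.1) := by
  rw [I_mul_eq_inner (mem_val x) (mem_val y), val_toLp, val_toLp]

theorem norm_sq_val (x : Lp ℝ 2 m) : ‖x‖ ^ 2 = I (x.1 ^ 2) := by
  rw [I_sq_eq_norm (mem_val x), val_toLp]

theorem add_val (x y : Lp ℝ 2 m) : (x + y).1 = x.1 + y.1 := rfl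
theorem sub_val (x y : Lp ℝ 2 m) : (x - y).1 = x.1 - y.1 := rfl
theorem smul_val (c : ℝ) (x : Lp ℝ 2 m) : (c • x).1 = c • x.1 := rfl
theorem toLp_add' {f g : M →ₘ[m] ℝ} (hf : MemLp f 2 m) (hg : MemLp g 2 m) :
    (mem_add hf hg).toLp ((f + g : M →ₘ[m] ℝ) : M → ℝ) = hf.toLp (f : M → ℝ) + hg.toLp (g : M → ℝ) :=
  Subtype.ext (by rw [toLp_val, add_val, toLp_val, toLp_val])
theorem toLp_sub' {f g : M →ₘ[m] ℝ} (hf : MemLp f 2 m) (hg : MemLp g 2 m) :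
    (mem_sub hf hg).toLp ((f - g : M →ₘ[m] ℝ) : M → ℝ) = hf.toLp (f : M → ℝ) - hg.toLp (g : M → ℝ) :=
  Subtype.ext (by rw [toLp_val, sub_val, toLp_val, toLp_val])
theorem toLp_smul' {f : M →ₘ[m] ℝ} (c : ℝ) (hf : MemLp f 2 m) :
    (mem_smul c hf).toLp ((c • f : M →ₘ[m] ℝ) : M → ℝ) = c • hf.toLp (f : M → ℝ) :=
  Subtype.ext (by rw [toLp_val, smul_val, toLp_val])

/-- convergence in `L²` -/
theorem tendsto_val_iff {ι : Type*} {l : Filter ι} {x : ι → Lp ℝ 2 m} {y : Lp ℝ 2 m} :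
    Tendsto x l (𝓝 y) ↔ Tendsto (fun n => I (((x n).1 - y.1) ^ 2)) l (𝓝 0) := by
  rw [tendsto_iff_norm_sub_tendsto_zero]
  have h : ∀ n, I (((x n).1 - y.1) ^ 2) = ‖x n - y‖ ^ 2 := fun n => by
    rw [norm_sq_val, sub_val]
  simp_rw [h]
  constructor
  · intro h1
    simpa using h1.pow 2
  · intro h1
    have h2 := (Real.continuous_sqrt.tendsto 0).comp h1
    rw [Real.sqrt_zero] at h2
    refine h2.congr fun n => ?_
    simp [Real.sqrt_sq (norm_nonneg _)]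

/-- The graph of the Laplacian in `L²`. -/
def Calc.LG (C : Calc m) (x y : Lp ℝ 2 m) : Prop := C.IsLap x.1 y.1

namespace IsDir

theorem gen (hC : IsDir C) : Sg.Gen C.LG where
  add h h' := hC.isLap_add h h'
  smul := fun c _ _ h => hC.isLap_smul c h
  symm := fun {x y x' y'} h h' => by
    rw [inner_val, inner_val]
    have h1 := h.2.2 _ h'.1
    have h2 := h'.2.2 _ h.1
    have h3 : I (C.Γ x.1 x'.1) = -I (y.1 * x'.1) := h1
    have h4 : I (C.Γ x'.1 x.1) = -I (y'.1 * x.1) := h2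
    rw [hC.symm _ h'.1 _ h.1, h3] at h4
    rw [mul_comm x.1]
    linarith
  diss := fun {x y} h => by
    rw [inner_val]
    have h3 : I (C.Γ x.1 x.1) = -I (y.1 * x.1) := h.2.2 _ h.1
    have h4 := hC.E_nonneg h.1
    linarith
  surj := fun lam hl x => ⟨(hC.J_mem2 hl (mem_val x)).toLp (C.J lam x.1 : M → ℝ), by
    have h := hC.J_isLap hl (mem_val x)
    unfold Calc.LG
    rw [smul_val, sub_val, toLp_val]
    exact h⟩
  dense := fun x ε hε => by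
    have h1 := hC.J_tendsto_L2 (mem_val x)
    obtain ⟨N, hN⟩ := (Metric.tendsto_atTop.1 h1) (ε ^ 2) (by positivity)
    have hl : (0 : ℝ) < ((N : ℝ) + 1)⁻¹ := by positivity
    have h2 := hN N le_rfl
    rw [Real.dist_eq, sub_zero, abs_of_nonneg (I_sq_nonneg _)] at h2
    refine ⟨(hC.J_mem2 hl (mem_val x)).toLp (C.J ((N : ℝ) + 1)⁻¹ x.1 : M → ℝ),
      ((mem_smul ((N : ℝ) + 1)⁻¹⁻¹ (mem_sub (hC.J_mem2 hl (mem_val x)) (mem_val x))).toLp
        ((((N : ℝ) + 1)⁻¹⁻¹ • (C.J ((N : ℝ) + 1)⁻¹ x.1 - x.1) : M →ₘ[m] ℝ) : M → ℝ)), ?_, ?_⟩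
    · have h := hC.J_isLap hl (mem_val x)
      unfold Calc.LG
      rw [toLp_val, toLp_val]
      exact h
    · have h3 : ‖(hC.J_mem2 hl (mem_val x)).toLp (C.J ((N : ℝ) + 1)⁻¹ x.1 : M → ℝ) - x‖ ^ 2
          < ε ^ 2 := by
        rw [norm_sq_val, sub_val, toLp_val]
        exact h2
      exact lt_of_pow_lt_pow_left₀ 2 hε.le h3

theorem R_val (hC : IsDir C) {lam : ℝ} (hl : 0 < lam) {f : M →ₘ[m] ℝ} (hf : MemLp f 2 m) :
    (hC.gen.R lam (hf.toLp (f : M → ℝ))).1 = C.J lam f := by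
  have h : hC.gen.R lam (hf.toLp (f : M → ℝ)) = (hC.J_mem2 hl hf).toLp (C.J lam f : M → ℝ) := by
    apply hC.gen.R_unique hl
    unfold Calc.LG
    rw [smul_val, sub_val, toLp_val, toLp_val]
    exact hC.J_isLap hl hf
  rw [h, toLp_val]

theorem R_toLp (hC : IsDir C) {lam : ℝ} (hl : 0 < lam) {f : M →ₘ[m] ℝ} (hf : MemLp f 2 m) :
    hC.gen.R lam (hf.toLp (f : M → ℝ)) = (hC.J_mem2 hl hf).toLp (C.J lam f : M → ℝ) :=
  Subtype.ext (by rw [hC.R_val hl hf, toLp_val])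

end IsDir

open Classical in
/-- The heat semigroup. -/
noncomputable def Calc.P (C : Calc m) (t : ℝ) (f : M →ₘ[m] ℝ) : M →ₘ[m] ℝ :=
  if h : Sg.Gen C.LG ∧ MemLp f 2 m then (h.1.S t (h.2.toLp (f : M → ℝ))).1 else 0

namespace IsDir

variable (hC : IsDir C) {s t lam : ℝ} {f g h : M →ₘ[m] ℝ}
include hC

theorem P_val (t : ℝ) (hf : MemLp f 2 m) : C.P t f = (hC.gen.S t (hf.toLp (f : M → ℝ))).1 := by
  unfold Calc.P
  rw [dif_pos ⟨hC.gen, hf⟩]

theorem P_mem2 (t : ℝ) (hf : MemLp f 2 m) : MemLp (C.P t f) 2 m := by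
  rw [hC.P_val t hf]
  exact mem_val _

theorem P_toLp (t : ℝ) (hf : MemLp f 2 m) :
    (hC.P_mem2 t hf).toLp (C.P t f : M → ℝ) = hC.gen.S t (hf.toLp (f : M → ℝ)) :=
  Subtype.ext (by rw [toLp_val, hC.P_val t hf])

theorem P_add (t : ℝ) (hf : MemLp f 2 m) (hg : MemLp g 2 m) :
    C.P t (f + g) = C.P t f + C.P t g := by
  rw [hC.P_val t (mem_add hf hg), toLp_add', map_add, hC.P_val t hf, hC.P_val t hg, add_val]

theorem P_sub (t : ℝ) (hf : MemLp f 2 m) (hg : MemLp g 2 m) :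
    C.P t (f - g) = C.P t f - C.P t g := by
  rw [hC.P_val t (mem_sub hf hg), toLp_sub', map_sub, hC.P_val t hf, hC.P_val t hg, sub_val]

theorem P_smul (t c : ℝ) (hf : MemLp f 2 m) : C.P t (c • f) = c • C.P t f := by
  rw [hC.P_val t (mem_smul c hf), toLp_smul', map_smul, hC.P_val t hf, smul_val]

theorem P_neg (t : ℝ) (hf : MemLp f 2 m) : C.P t (-f) = -C.P t f := by
  have h := hC.P_smul t (-1) hf
  simpa using h

theorem P_zero (t : ℝ) : C.P t (0 : M →ₘ[m] ℝ) = 0 := by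
  have h := hC.P_smul t 0 (mem_zero (M := M) (m := m) (p := 2))
  simpa using h

/-- `P_0 = 1` -/
theorem P_zero_time (hf : MemLp f 2 m) : C.P 0 f = f := by
  rw [hC.P_val 0 hf, hC.gen.S_zero, toLp_val]

theorem P_abs (t : ℝ) (hf : MemLp f 2 m) : C.P |t| f = C.P t f := by
  rw [hC.P_val _ hf, hC.P_val _ hf, hC.gen.S_abs]

/-- the semigroup law -/
theorem P_P (hs : 0 ≤ s) (ht : 0 ≤ t) (hf : MemLp f 2 m) : C.P s (C.P t f) = C.P (s + t) f := by
  rw [hC.P_val s (hC.P_mem2 t hf), hC.P_toLp t hf, hC.P_val _ hf, hC.gen.S_add hs ht]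

theorem P_comm (hs : 0 ≤ s) (ht : 0 ≤ t) (hf : MemLp f 2 m) :
    C.P s (C.P t f) = C.P t (C.P s f) := by
  rw [hC.P_P hs ht hf, hC.P_P ht hs hf, add_comm]

/-- symmetry -/
theorem P_symm (t : ℝ) (hf : MemLp f 2 m) (hg : MemLp g 2 m) :
    I (C.P t f * g) = I (f * C.P t g) := by
  have h := hC.gen.S_symm t (hf.toLp (f : M → ℝ)) (hg.toLp (g : M → ℝ))
  rw [inner_val, inner_val, ← hC.P_val t hf, ← hC.P_val t hg, toLp_val, toLp_val] at h
  exact h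

/-- `L²` contraction -/
theorem P_sq_le (t : ℝ) (hf : MemLp f 2 m) : I (C.P t f ^ 2) ≤ I (f ^ 2) := by
  have h := hC.gen.S_norm t (hf.toLp (f : M → ℝ))
  have h2 := pow_le_pow_left₀ (norm_nonneg _) h 2
  rw [norm_sq_val, norm_sq_val, ← hC.P_val t hf, toLp_val] at h2
  exact h2

/-- the semigroup commutes with the resolvents -/
theorem P_J (t : ℝ) (hl : 0 < lam) (hf : MemLp f 2 m) : C.P t (C.J lam f) = C.J lam (C.P t f) := by
  rw [hC.P_val t (hC.J_mem2 hl hf), ← hC.R_toLp hl hf, hC.gen.S_R hl, ← hC.P_toLp t hf,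
    hC.R_val hl]

/-- the semigroup commutes with the Laplacian -/
theorem P_isLap_of (t : ℝ) (hfh : C.IsLap f h) : C.IsLap (C.P t f) (C.P t h) := by
  have hf := hC.memLp f hfh.1
  have h1 : C.LG (hf.toLp (f : M → ℝ)) (hfh.2.1.toLp (h : M → ℝ)) := by
    unfold Calc.LG
    rw [toLp_val, toLp_val]
    exact hfh
  have h2 : C.IsLap (hC.gen.S t (hf.toLp (f : M → ℝ))).1
    (hC.gen.S t (hfh.2.1.toLp (h : M → ℝ))).1 := hC.gen.S_L t h1
  rwa [← hC.P_val t hf, ← hC.P_val t hfh.2.1] at h2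

theorem isLap_LG (hfh : C.IsLap f h) :
    C.LG ((hC.memLp f hfh.1).toLp (f : M → ℝ)) (hfh.2.1.toLp (h : M → ℝ)) := by
  unfold Calc.LG
  rw [toLp_val, toLp_val]
  exact hfh

/-- Lipschitz continuity in time on the domain -/
theorem P_sub_sq_le (s t : ℝ) (hfh : C.IsLap f h) :
    I ((C.P t f - C.P s f) ^ 2) ≤ (t - s) ^ 2 * I (h ^ 2) := by
  have hf := hC.memLp f hfh.1
  have h1 := hC.gen.S_sub_norm s t (hC.isLap_LG hfh)
  have h2 := pow_le_pow_left₀ (norm_nonneg _) h1 2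
  rw [mul_pow, sq_abs, norm_sq_val, norm_sq_val, sub_val, ← hC.P_val t hf, ← hC.P_val s hf,
    toLp_val] at h2
  exact h2

/-- strong continuity -/
theorem P_cont (hf : MemLp f 2 m) (t : ℝ) :
    Tendsto (fun s => I ((C.P s f - C.P t f) ^ 2)) (𝓝 t) (𝓝 0) := by
  have h1 := tendsto_val_iff.1 ((hC.gen.S_cont (hf.toLp (f : M → ℝ))).tendsto t)
  simpa only [← hC.P_val _ hf] using h1

/-- `P_t f` is in the domain of the Laplacian for `t > 0`, with the energy estimates -/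
theorem P_reg (ht : 0 < t) (hf : MemLp f 2 m) :
    C.IsLap (C.P t f) (C.lap (C.P t f)) ∧
      I (C.P t f ^ 2) + 2 * t * I (C.Γ (C.P t f) (C.P t f))
        + 2 * t ^ 2 * I (C.lap (C.P t f) ^ 2) ≤ I (f ^ 2) := by
  obtain ⟨y, hy0, hb⟩ := hC.gen.S_reg ht (hf.toLp (f : M → ℝ))
  have hy : C.IsLap (hC.gen.S t (hf.toLp (f : M → ℝ))).1 y.1 := hy0
  rw [← hC.P_val t hf] at hy
  have h1 : C.lap (C.P t f) = y.1 := hC.lap_eq hy
  rw [h1]
  refine ⟨hy, ?_⟩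
  rw [norm_sq_val, norm_sq_val, norm_sq_val, inner_val, ← hC.P_val t hf, toLp_val] at hb
  have h2 : I (C.Γ (C.P t f) (C.P t f)) = -I (y.1 * C.P t f) := hy.2.2 _ hy.1
  rw [h2]
  linarith

theorem P_isLap (ht : 0 < t) (hf : MemLp f 2 m) : C.IsLap (C.P t f) (C.lap (C.P t f)) :=
  (hC.P_reg ht hf).1

theorem P_mem (ht : 0 < t) (hf : MemLp f 2 m) : C.P t f ∈ C.W := (hC.P_isLap ht hf).1

theorem P_lap_of (t : ℝ) (hfh : C.IsLap f h) : C.lap (C.P t f) = C.P t h :=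
  hC.lap_eq (hC.P_isLap_of t hfh)

theorem P_lap_sq_le (ht : 0 < t) (hf : MemLp f 2 m) :
    2 * t ^ 2 * I (C.lap (C.P t f) ^ 2) ≤ I (f ^ 2) := by
  have h1 := (hC.P_reg ht hf).2
  have h2 := I_sq_nonneg (C.P t f)
  have h3 := hC.E_nonneg (hC.P_mem ht hf)
  have h4 : 0 ≤ 2 * t * I (C.Γ (C.P t f) (C.P t f)) := by positivity
  linarith

theorem P_E_le' (ht : 0 < t) (hf : MemLp f 2 m) :
    2 * t * I (C.Γ (C.P t f) (C.P t f)) ≤ I (f ^ 2) := by
  have h1 := (hC.P_reg ht hf).2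
  have h2 := I_sq_nonneg (C.P t f)
  have h3 := I_sq_nonneg (C.lap (C.P t f))
  have h4 : 0 ≤ 2 * t ^ 2 * I (C.lap (C.P t f) ^ 2) := by positivity
  linarith

/-- `Δ P_{s+t} f = P_s Δ P_t f` -/
theorem P_lap_add (hs : 0 ≤ s) (ht : 0 < t) (hf : MemLp f 2 m) :
    C.lap (C.P (s + t) f) = C.P s (C.lap (C.P t f)) := by
  rw [← hC.P_P hs ht.le hf]
  exact hC.P_lap_of s (hC.P_isLap ht hf)

/-- convergence of the implicit Euler scheme -/
theorem P_euler (ht : 0 < t) (hf : MemLp f 2 m) :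
    (∀ lam : ℝ, 0 < lam → ∀ n : ℕ, MemLp ((C.J lam)^[n] f) 2 m) ∧
    Tendsto (fun n : ℕ => I (((C.J (t / ((n : ℝ) + 1)))^[n + 1] f - C.P t f) ^ 2))
      atTop (𝓝 0) := by
  have h0 : ∀ lam : ℝ, 0 < lam → ∀ n : ℕ, MemLp ((C.J lam)^[n] f) 2 m ∧
      ((hC.gen.R lam)^[n] (hf.toLp (f : M → ℝ))).1 = (C.J lam)^[n] f := by
    intro lam hl n
    induction n with
    | zero => exact ⟨hf, toLp_val hf⟩
    | succ n ih =>
      obtain ⟨ih1, ih2⟩ := ih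
      rw [Function.iterate_succ_apply', Function.iterate_succ_apply']
      refine ⟨hC.J_mem2 hl ih1, ?_⟩
      rw [← hC.R_val hl ih1]
      have h3 : (hC.gen.R lam)^[n] (hf.toLp (f : M → ℝ))
          = ih1.toLp ((C.J lam)^[n] f : M → ℝ) := Subtype.ext (by rw [toLp_val]; exact ih2)
      rw [h3]
  refine ⟨fun lam hl n => (h0 lam hl n).1, ?_⟩
  have h1 := tendsto_val_iff.1 (hC.gen.S_euler ht (hf.toLp (f : M → ℝ)))
  rw [← hC.P_val t hf] at h1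
  refine h1.congr fun n => ?_
  rw [(h0 _ (by positivity) (n + 1)).2]

/-- classes closed in `L²` and invariant under the resolvents are invariant under `P_t` -/
theorem P_mem_of {K : Set (M →ₘ[m] ℝ)} (ht : 0 ≤ t)
    (hK : ∀ (u : ℕ → M →ₘ[m] ℝ) (f : M →ₘ[m] ℝ), (∀ n, MemLp (u n) 2 m) → (∀ n, u n ∈ K) →
      MemLp f 2 m → Tendsto (fun n => I ((u n - f) ^ 2)) atTop (𝓝 0) → f ∈ K)
    (hJ : ∀ lam : ℝ, 0 < lam → lam ≤ t → ∀ f ∈ K, MemLp f 2 m → C.J lam f ∈ K)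
    (hf : MemLp f 2 m) (hfK : f ∈ K) : C.P t f ∈ K := by
  rcases ht.eq_or_lt with h | h
  · rw [← h, hC.P_zero_time hf]; exact hfK
  · obtain ⟨h1, h2⟩ := hC.P_euler h hf
    refine hK (fun n => (C.J (t / ((n : ℝ) + 1)))^[n + 1] f) _ (fun n => h1 _ (by positivity) _)
      (fun n => ?_) (hC.P_mem2 t hf) h2
    have hn : (0 : ℝ) < (n : ℝ) + 1 := by positivity
    have h3 : 0 < t / ((n : ℝ) + 1) := div_pos h hn
    have h4 : t / ((n : ℝ) + 1) ≤ t := div_le_self h.le (by linarith [n.cast_nonneg (α := ℝ)])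
    have h5 : ∀ k : ℕ, (C.J (t / ((n : ℝ) + 1)))^[k] f ∈ K := fun k => by
      induction k with
      | zero => simpa using hfK
      | succ k ih =>
        rw [Function.iterate_succ_apply']
        exact hJ _ h3 h4 _ ih (h1 _ h3 k)
    exact h5 (n + 1)

/-- the Markov property -/
theorem P_le (ht : 0 ≤ t) (hf : MemLp f 2 m) {K : ℝ} (hK : 0 ≤ K)
    (h0 : ∀ᵐ x ∂m, f x ≤ K) : ∀ᵐ x ∂m, C.P t f x ≤ K := by
  have h := hC.P_mem_of (K := {f | ∀ᵐ x ∂m, f x ≤ K}) ht ?_ ?_ hf h0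
  · exact h
  · intro u f hu huK hf hlim
    obtain ⟨ns, -, hns⟩ := exists_subseq_of_I_sq hu hf hlim
    filter_upwards [hns, ae_all_iff.2 huK] with x h1 h2
    exact le_of_tendsto h1 (Eventually.of_forall fun n => h2 (ns n))
  · intro lam hl _ f hfK hf
    have h1 : f ≤ K • (1 : M →ₘ[m] ℝ) := by
      rw [le_iff_ae]
      filter_upwards [hfK, smul_ae (1 : M →ₘ[m] ℝ) K, one_ae (M := M) (m := m)] with x a b c
      rw [b, c]; linarith [a]
    have h2 := hC.J_le hl hf hK h1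
    rw [le_iff_ae] at h2
    filter_upwards [h2, smul_ae (1 : M →ₘ[m] ℝ) K, one_ae (M := M) (m := m)] with x a b c
    rw [b, c] at a; linarith

theorem P_ge (ht : 0 ≤ t) (hf : MemLp f 2 m) {K : ℝ} (hK : 0 ≤ K)
    (h0 : ∀ᵐ x ∂m, -K ≤ f x) : ∀ᵐ x ∂m, -K ≤ C.P t f x := by
  have h1 := hC.P_le ht (mem_neg hf) hK (by
    filter_upwards [h0, neg_ae f] with x a b
    rw [b]; linarith)
  rw [hC.P_neg t hf] at h1
  filter_upwards [h1, neg_ae (C.P t f)] with x a b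
  rw [b] at a; linarith

theorem P_nonneg (ht : 0 ≤ t) (hf : MemLp f 2 m) (h0 : 0 ≤ f) : 0 ≤ C.P t f := by
  rw [nonneg_iff_ae] at *
  have h1 := hC.P_ge ht hf le_rfl (by simpa using h0)
  simpa using h1

theorem P_mono (ht : 0 ≤ t) (hf : MemLp f 2 m) (hg : MemLp g 2 m) (h : f ≤ g) :
    C.P t f ≤ C.P t g := by
  have h1 := hC.P_nonneg ht (mem_sub hg hf) (sub_nonneg.2 h)
  rw [hC.P_sub t hg hf] at h1
  exact sub_nonneg.1 h1

theorem P_bdd (ht : 0 ≤ t) (hf : MemLp f 2 m) {K : ℝ} (h0 : ∀ᵐ x ∂m, |f x| ≤ K) :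
    ∀ᵐ x ∂m, |C.P t f x| ≤ K := by
  by_cases hK : 0 ≤ K
  · have h1 := hC.P_le ht hf hK (by filter_upwards [h0] with x a using (abs_le.1 a).2)
    have h2 := hC.P_ge ht hf hK (by filter_upwards [h0] with x a using (abs_le.1 a).1)
    filter_upwards [h1, h2] with x a b using abs_le.2 ⟨b, a⟩
  · filter_upwards [h0] with x a
    exact absurd ((abs_nonneg _).trans a) hK

theorem P_memTop (ht : 0 ≤ t) (hf : MemLp f 2 m) (hf' : MemLp f ∞ m) : MemLp (C.P t f) ∞ m := by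
  obtain ⟨K, hK⟩ := mem_top_iff.1 hf'
  exact mem_top_iff.2 ⟨K, hC.P_bdd ht hf hK⟩

end IsDir

end Vale.Agent.P233
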