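import Vale.Agent.P233.H103.Semi2

/-! The heat semigroup in the Sobolev space `W`; derivatives in time. -/

open MeasureTheory Filter Topology
open scoped ENNReal NNReal InnerProductSpace

namespace Vale.Agent.P233

variable {M : Type*} [MeasurableSpace M] {m : Measure M} {C : Calc m}

namespace IsDir

/-- `W` as a Hilbert space -/
def WS (hC : IsDir C) : Type _ := hC.HS

/-- the function class of an element -/
def WS.val {hC : IsDir C} (x : hC.WS) : M →ₘ[m] ℝ := HS.val (hC := hC) x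

/-- the element with a given function class -/
def WS.mk {hC : IsDir C} (f : M →ₘ[m] ℝ) (hf : f ∈ C.W) : hC.WS := HS.mk (hC := hC) f hf

theorem WS.mem {hC : IsDir C} (x : hC.WS) : x.val ∈ C.W := HS.mem (hC := hC) x

noncomputable instance WS.instNACG (hC : IsDir C) : NormedAddCommGroup hC.WS :=
  letI cI : InnerProductSpace.Core ℝ hC.HS := hC.core one_pos
  (cI.toNormedAddCommGroup : NormedAddCommGroup hC.HS)

noncomputable instance WS.instIPS (hC : IsDir C) : InnerProductSpace ℝ hC.WS :=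
  letI cI : InnerProductSpace.Core ℝ hC.HS := hC.core one_pos
  (InnerProductSpace.ofCore cI.toCore : @InnerProductSpace ℝ hC.HS _
    (cI.toNormedAddCommGroup : NormedAddCommGroup hC.HS).toSeminormedAddCommGroup)

@[simp] theorem WS.val_mk {hC : IsDir C} (f : M →ₘ[m] ℝ) (hf : f ∈ C.W) :
    (WS.mk f hf : hC.WS).val = f := rfl
@[simp] theorem WS.val_add {hC : IsDir C} (x y : hC.WS) : (x + y).val = x.val + y.val := rfl
@[simp] theorem WS.val_sub {hC : IsDir C} (x y : hC.WS) : (x - y).val = x.val - y.val := rfl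
@[simp] theorem WS.val_smul {hC : IsDir C} (c : ℝ) (x : hC.WS) : (c • x).val = c • x.val := rfl
theorem WS.ext {hC : IsDir C} {x y : hC.WS} (h : x.val = y.val) : x = y := HS.ext h

theorem WS.inner_eq {hC : IsDir C} (x y : hC.WS) :
    ⟪x, y⟫_ℝ = I (x.val * y.val) + I (C.Γ x.val y.val) := by
  have h : ⟪x, y⟫_ℝ = I (x.val * y.val) + 1 * I (C.Γ x.val y.val) := rfl
  rw [h, one_mul]

theorem WS.norm_sq {hC : IsDir C} (x : hC.WS) : ‖x‖ ^ 2 = C.nrm2 x.val := by
  rw [← real_inner_self_eq_norm_sq, WS.inner_eq, Calc.nrm2, sq]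

theorem WS.tendsto_iff {hC : IsDir C} {ι : Type*} {l : Filter ι} {x : ι → hC.WS} {y : hC.WS} :
    Tendsto x l (𝓝 y) ↔ Tendsto (fun n => C.nrm2 ((x n).val - y.val)) l (𝓝 0) := by
  rw [tendsto_iff_norm_sub_tendsto_zero]
  have h : ∀ n, C.nrm2 ((x n).val - y.val) = ‖x n - y‖ ^ 2 := fun n => by
    rw [WS.norm_sq, WS.val_sub]
  simp_rw [h]
  constructor
  · intro h1
    simpa using h1.pow 2
  · intro h1
    have h2 := (Real.continuous_sqrt.tendsto 0).comp h1
    rw [Real.sqrt_zero] at h2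
    refine h2.congr fun n => ?_
    simp [Real.sqrt_sq (norm_nonneg _)]

instance WS.instComplete (hC : IsDir C) : CompleteSpace hC.WS := by
  refine Metric.complete_of_cauchySeq_tendsto fun u hu => ?_
  obtain ⟨f, hf, hlim⟩ := hC.complete (fun n => (u n).val) (fun n => (u n).mem) (by
    intro ε hε
    rw [Metric.cauchySeq_iff] at hu
    obtain ⟨N, hN⟩ := hu (Real.sqrt ε) (Real.sqrt_pos.2 hε)
    refine ⟨N, fun n hn k hk => ?_⟩
    have h1 := hN n hn k hk
    rw [dist_eq_norm] at h1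
    have h2 : ‖u n - u k‖ ^ 2 < ε := by
      rw [← Real.sq_sqrt hε.le]
      have := norm_nonneg (u n - u k)
      gcongr
    rwa [WS.norm_sq, WS.val_sub] at h2)
  exact ⟨WS.mk f hf, WS.tendsto_iff.2 hlim⟩

/-- the graph of the Laplacian in `W` -/
def LW (hC : IsDir C) (x y : hC.WS) : Prop := C.IsLap x.val y.val

theorem J_W (hC : IsDir C) {lam : ℝ} (hl : 0 < lam) {f : M →ₘ[m] ℝ} (hf : f ∈ C.W) :
    lam⁻¹ • (C.J lam f - f) ∈ C.W :=
  hC.smul_mem _ _ (hC.sub_mem (hC.J_mem hl (hC.memLp f hf)) hf)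

theorem genW (hC : IsDir C) : Sg.Gen hC.LW where
  add h h' := hC.isLap_add h h'
  smul := fun c _ _ h => hC.isLap_smul c h
  symm := fun {x y x' y'} h h' => by
    rw [WS.inner_eq, WS.inner_eq]
    have h1 : I (C.Γ x.val x'.val) = -I (y.val * x'.val) := h.2.2 _ h'.1
    have h2 : I (C.Γ x'.val x.val) = -I (y'.val * x.val) := h'.2.2 _ h.1
    have h3 : I (C.Γ x.val y'.val) = -I (y.val * y'.val) := h.2.2 _ y'.mem
    have h4 : I (C.Γ x'.val y.val) = -I (y'.val * y.val) := h'.2.2 _ y.mem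
    rw [hC.symm _ y.mem _ x'.mem, h3, h4, mul_comm y.val y'.val, mul_comm x.val]
    rw [hC.symm _ h'.1 _ h.1, h1] at h2
    linarith
  diss := fun {x y} h => by
    rw [WS.inner_eq]
    have h1 : I (C.Γ x.val x.val) = -I (y.val * x.val) := h.2.2 _ h.1
    have h3 : I (C.Γ x.val y.val) = -I (y.val * y.val) := h.2.2 _ y.mem
    have h4 := hC.E_nonneg h.1
    have h5 := I_sq_nonneg y.val
    rw [sq] at h5
    rw [hC.symm _ y.mem _ x.mem, h3]
    linarith
  surj := fun lam hl x => ⟨WS.mk (C.J lam x.val) (hC.J_mem hl (hC.memLp _ x.mem)), by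
    have h := hC.J_isLap hl (hC.memLp _ x.mem)
    exact h⟩
  dense := fun x ε hε => by
    have h1 := hC.J_tendsto_W x.mem
    obtain ⟨N, hN⟩ := (Metric.tendsto_atTop.1 h1) (ε ^ 2) (by positivity)
    have hl : (0 : ℝ) < ((N : ℝ) + 1)⁻¹ := by positivity
    have h2 := hN N le_rfl
    have hm := hC.J_mem hl (hC.memLp _ x.mem)
    rw [Real.dist_eq, sub_zero, abs_of_nonneg (hC.nrm2_nonneg (hC.sub_mem hm x.mem))] at h2
    refine ⟨WS.mk (C.J ((N : ℝ) + 1)⁻¹ x.val) hm, WS.mk _ (hC.J_W hl x.mem),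
      hC.J_isLap hl (hC.memLp _ x.mem), ?_⟩
    have h3 : ‖(WS.mk (C.J ((N : ℝ) + 1)⁻¹ x.val) hm : hC.WS) - x‖ ^ 2 < ε ^ 2 := by
      rw [WS.norm_sq, WS.val_sub, WS.val_mk]
      exact h2
    exact lt_of_pow_lt_pow_left₀ 2 hε.le h3

theorem RW_val (hC : IsDir C) {lam : ℝ} (hl : 0 < lam) (x : hC.WS) :
    (hC.genW.R lam x).val = C.J lam x.val := by
  have h : hC.genW.R lam x = WS.mk (C.J lam x.val) (hC.J_mem hl (hC.memLp _ x.mem)) := by
    apply hC.genW.R_unique hl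
    exact hC.J_isLap hl (hC.memLp _ x.mem)
  rw [h, WS.val_mk]

theorem RW_iter_val (hC : IsDir C) {lam : ℝ} (hl : 0 < lam) (n : ℕ) (x : hC.WS) :
    ((hC.genW.R lam)^[n] x).val = (C.J lam)^[n] x.val := by
  induction n with
  | zero => rfl
  | succ n ih =>
    rw [Function.iterate_succ_apply', Function.iterate_succ_apply', hC.RW_val hl, ih]

/-- The semigroups in `W` and in `L²` agree. -/
theorem SW_val (hC : IsDir C) (t : ℝ) (x : hC.WS) : (hC.genW.S t x).val = C.P t x.val := by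
  have hx2 := hC.memLp _ x.mem
  have key : ∀ t : ℝ, 0 ≤ t → (hC.genW.S t x).val = C.P t x.val := by
    intro t ht
    rcases ht.eq_or_lt with h | h
    · rw [← h, hC.genW.S_zero, hC.P_zero_time hx2]
    · have h1 := WS.tendsto_iff.1 (hC.genW.S_euler h x)
      obtain ⟨h2, h3⟩ := hC.P_euler h hx2
      have h4 : ∀ n : ℕ, ((hC.genW.R (t / ((n : ℝ) + 1)))^[n + 1] x).val
          = (C.J (t / ((n : ℝ) + 1)))^[n + 1] x.val := fun n => hC.RW_iter_val (by positivity) _ x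
      simp_rw [h4] at h1
      have h5 := hC.tendsto_I_sq_of_nrm2 (fun n => by rw [← h4 n]; exact WS.mem _)
        (WS.mem _) h1
      exact hC.eq_of_tendsto_I_sq (fun n => h2 _ (by positivity) _) (hC.memLp _ (WS.mem _))
        (hC.P_mem2 t hx2) h5 h3
  have h1 := key |t| (abs_nonneg t)
  rwa [hC.genW.S_abs, hC.P_abs t hx2] at h1

variable (hC : IsDir C) {s t lam : ℝ} {f g h : M →ₘ[m] ℝ}
include hC

theorem P_memW (t : ℝ) (hf : f ∈ C.W) : C.P t f ∈ C.W := by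
  have h1 := hC.SW_val t (WS.mk f hf)
  rw [WS.val_mk] at h1
  rw [← h1]
  exact WS.mem _

/-- contraction in `W` -/
theorem P_nrm2_le (t : ℝ) (hf : f ∈ C.W) : C.nrm2 (C.P t f) ≤ C.nrm2 f := by
  have h := hC.genW.S_norm t (WS.mk f hf)
  have h2 := pow_le_pow_left₀ (norm_nonneg _) h 2
  rw [WS.norm_sq, WS.norm_sq, hC.SW_val, WS.val_mk] at h2
  exact h2

/-- continuity in `W` -/
theorem P_contW (hf : f ∈ C.W) (t : ℝ) :
    Tendsto (fun s => C.nrm2 (C.P s f - C.P t f)) (𝓝 t) (𝓝 0) := by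
  have h1 := WS.tendsto_iff.1 ((hC.genW.S_cont (WS.mk f hf)).tendsto t)
  simpa only [hC.SW_val, WS.val_mk] using h1

/-- Lipschitz continuity in `W` -/
theorem P_sub_nrm2_le (s t : ℝ) (hfh : C.IsLap f h) (hh : h ∈ C.W) :
    C.nrm2 (C.P t f - C.P s f) ≤ (t - s) ^ 2 * C.nrm2 h := by
  have h1 := hC.genW.S_sub_norm (x := WS.mk f hfh.1) (y := WS.mk h hh) s t hfh
  have h2 := pow_le_pow_left₀ (norm_nonneg _) h1 2
  rw [mul_pow, sq_abs, WS.norm_sq, WS.norm_sq, WS.val_sub, hC.SW_val, hC.SW_val, WS.val_mk,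
    WS.val_mk] at h2
  exact h2

/-- convergence of the implicit Euler scheme in `W` -/
theorem P_eulerW (ht : 0 < t) (hf : f ∈ C.W) :
    (∀ lam : ℝ, 0 < lam → ∀ n : ℕ, (C.J lam)^[n] f ∈ C.W) ∧
    Tendsto (fun n : ℕ => C.nrm2 ((C.J (t / ((n : ℝ) + 1)))^[n + 1] f - C.P t f))
      atTop (𝓝 0) := by
  refine ⟨fun lam hl n => ?_, ?_⟩
  · have h := hC.RW_iter_val hl n (WS.mk f hf)
    rw [WS.val_mk] at h
    rw [← h]
    exact WS.mem _
  · have h1 := WS.tendsto_iff.1 (hC.genW.S_euler ht (WS.mk f hf))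
    rw [hC.SW_val, WS.val_mk] at h1
    refine h1.congr fun n => ?_
    rw [hC.RW_iter_val (by positivity), WS.val_mk]

/-- classes closed in `W` and invariant under the resolvents are invariant under `P_t` -/
theorem P_mem_ofW {K : Set (M →ₘ[m] ℝ)} (ht : 0 ≤ t)
    (hK : ∀ (u : ℕ → M →ₘ[m] ℝ) (f : M →ₘ[m] ℝ), (∀ n, u n ∈ C.W) → (∀ n, u n ∈ K) →
      f ∈ C.W → Tendsto (fun n => C.nrm2 (u n - f)) atTop (𝓝 0) → f ∈ K)
    (hJ : ∀ lam : ℝ, 0 < lam → lam ≤ t → ∀ f ∈ K, f ∈ C.W → C.J lam f ∈ K)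
    (hf : f ∈ C.W) (hfK : f ∈ K) : C.P t f ∈ K := by
  rcases ht.eq_or_lt with h | h
  · rw [← h, hC.P_zero_time (hC.memLp _ hf)]; exact hfK
  · obtain ⟨h1, h2⟩ := hC.P_eulerW h hf
    refine hK (fun n => (C.J (t / ((n : ℝ) + 1)))^[n + 1] f) _ (fun n => h1 _ (by positivity) _)
      (fun n => ?_) (hC.P_memW t hf) h2
    have hn : (0 : ℝ) < (n : ℝ) + 1 := by positivity
    have h3 : 0 < t / ((n : ℝ) + 1) := div_pos h hn
    have h4 : t / ((n : ℝ) + 1) ≤ t := div_le_self h.le (by linarith [n.cast_nonneg (α := ℝ)])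
    have h5 : ∀ k : ℕ, (C.J (t / ((n : ℝ) + 1)))^[k] f ∈ K := fun k => by
      induction k with
      | zero => simpa using hfK
      | succ k ih =>
        rw [Function.iterate_succ_apply']
        exact hJ _ h3 h4 _ ih (h1 _ h3 k)
    exact h5 (n + 1)

/-- convergence in `W` implies convergence of the energy -/
theorem tendsto_energy {ι : Type*} {l : Filter ι} {u : ι → M →ₘ[m] ℝ} (hu : ∀ n, u n ∈ C.W)
    (hf : f ∈ C.W) (h : Tendsto (fun n => C.nrm2 (u n - f)) l (𝓝 0)) :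
    Tendsto (fun n => I (C.Γ (u n) (u n))) l (𝓝 (I (C.Γ f f))) := by
  have h1 : Tendsto (fun n => (WS.mk (u n) (hu n) : hC.WS)) l (𝓝 (WS.mk f hf)) :=
    WS.tendsto_iff.2 h
  have h2 := h1.norm.pow 2
  simp only [WS.norm_sq, WS.val_mk] at h2
  have h3 : Tendsto (fun n => I ((u n - f) ^ 2)) l (𝓝 0) := by
    refine squeeze_zero (fun n => I_sq_nonneg _) (fun n => ?_) h
    exact hC.I_sq_le_nrm2 (hC.sub_mem (hu n) hf)
  have h4 : Tendsto (fun n => (hC.memLp _ (hu n)).toLp (u n : M → ℝ)) l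
      (𝓝 ((hC.memLp _ hf).toLp (f : M → ℝ))) := by
    rw [tendsto_val_iff]
    simpa only [toLp_val] using h3
  have h5 := h4.norm.pow 2
  simp only [← I_sq_eq_norm] at h5
  have h6 := h2.sub h5
  simpa [Calc.nrm2] using h6

/-- the energy decreases -/
theorem P_E_le (ht : 0 ≤ t) (hf : f ∈ C.W) : I (C.Γ (C.P t f) (C.P t f)) ≤ I (C.Γ f f) := by
  have h := hC.P_mem_ofW (K := {g | I (C.Γ g g) ≤ I (C.Γ f f)}) ht ?_ ?_ hf
    (show I (C.Γ f f) ≤ I (C.Γ f f) from le_rfl)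
  · exact h
  · intro u g hu huK hg hlim
    exact le_of_tendsto (hC.tendsto_energy hu hg hlim) (Eventually.of_forall huK)
  · intro lam hl _ g hgK hg
    exact ((hC.J_est hl hg).2.1).trans hgK

/-! ### derivatives in time -/

/-- the heat equation in `L²` on the domain, up to `t = 0` -/
theorem P_derivD (ht : 0 ≤ t) (hfh : C.IsLap f h) :
    Tendsto (fun s => I (((s - t)⁻¹ • (C.P s f - C.P t f) - C.P t h) ^ 2))
      (𝓝[Set.Ici 0 \ {t}] t) (𝓝 0) := by
  have h1 := hC.gen.S_deriv_within ht (hC.isLap_LG hfh)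
  rw [hasDerivWithinAt_iff_tendsto_slope] at h1
  have h2 := tendsto_val_iff.1 h1
  refine h2.congr fun s => ?_
  have hf := hC.memLp _ hfh.1
  rw [slope_def_module, smul_val, sub_val, ← hC.P_val s hf, ← hC.P_val t hf, ← hC.P_val t hfh.2.1]

/-- the heat equation in `L²` for positive times -/
theorem P_deriv (ht : 0 < t) (hf : MemLp f 2 m) :
    Tendsto (fun s => I (((s - t)⁻¹ • (C.P s f - C.P t f) - C.lap (C.P t f)) ^ 2))
      (𝓝[≠] t) (𝓝 0) := by
  have h0 : 0 < t / 2 := by positivity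
  have h1 := hC.P_isLap h0 hf
  have h2 := hC.P_derivD h0.le h1
  have h3 : C.lap (C.P t f) = C.P (t / 2) (C.lap (C.P (t / 2) f)) := by
    have := hC.P_lap_add h0.le h0 hf
    rwa [add_halves] at this
  have h4 : Tendsto (fun s => s - t / 2) (𝓝[≠] t) (𝓝[Set.Ici 0 \ {t / 2}] (t / 2)) := by
    rw [tendsto_nhdsWithin_iff]
    constructor
    · have h5 : Tendsto (fun s : ℝ => s - t / 2) (𝓝 t) (𝓝 (t - t / 2)) :=
        (continuous_id.sub continuous_const).tendsto t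
      rw [sub_half] at h5
      exact h5.mono_left nhdsWithin_le_nhds
    · have h5 : ∀ᶠ s in 𝓝[≠] t, t / 2 < s :=
        nhdsWithin_le_nhds (lt_mem_nhds (by linarith))
      filter_upwards [h5, self_mem_nhdsWithin] with s hs hs'
      refine ⟨by simp only [Set.mem_Ici]; linarith, ?_⟩
      simp only [Set.mem_singleton_iff]
      intro h6
      exact hs' (by simp only [Set.mem_singleton_iff]; linarith)
  refine (h2.comp h4).congr' ?_
  have h5 : ∀ᶠ s in 𝓝[≠] t, t / 2 < s := nhdsWithin_le_nhds (lt_mem_nhds (by linarith))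
  filter_upwards [h5] with s hs
  simp only [Function.comp]
  rw [hC.P_P (by linarith) h0.le hf, hC.P_P h0.le h0.le hf, h3]
  congr 5
  · ring
  · ring_nf
  · ring_nf

/-- the heat equation in `W` -/
theorem P_derivW (ht : 0 ≤ t) (hfh : C.IsLap f h) (hh : h ∈ C.W) :
    Tendsto (fun s => C.nrm2 ((s - t)⁻¹ • (C.P s f - C.P t f) - C.P t h))
      (𝓝[Set.Ici 0 \ {t}] t) (𝓝 0) := by
  have h1 := hC.genW.S_deriv_within (x := WS.mk f hfh.1) (y := WS.mk h hh) ht hfh
  rw [hasDerivWithinAt_iff_tendsto_slope] at h1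
  have h2 := WS.tendsto_iff.1 h1
  refine h2.congr fun s => ?_
  rw [slope_def_module, WS.val_smul, WS.val_sub, hC.SW_val, hC.SW_val, hC.SW_val, WS.val_mk,
    WS.val_mk]

/-- derivative of the integral against a function -/
theorem P_hasDeriv_I (ht : 0 < t) (hfh : C.IsLap f h) (hg : MemLp g 2 m) :
    HasDerivAt (fun s => I (C.P s f * g)) (I (C.P t h * g)) t := by
  have hf := hC.memLp _ hfh.1
  have h1 := hC.gen.S_deriv ht (hC.isLap_LG hfh)
  have h2 := h1.inner ℝ (hasDerivAt_const t (hg.toLp (g : M → ℝ)))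
  simp only [inner_zero_right, zero_add] at h2
  have h3 : ∀ (r : ℝ) (f : M →ₘ[m] ℝ) (hf : MemLp f 2 m),
      ⟪hC.gen.S r (hf.toLp (f : M → ℝ)), hg.toLp (g : M → ℝ)⟫_ℝ = I (C.P r f * g) := by
    intro r f hf
    rw [inner_val, ← hC.P_val r hf, toLp_val]
  simp only [h3] at h2
  exact h2

/-- integrated form of the heat equation -/
theorem P_integral (ht : 0 ≤ t) (hfh : C.IsLap f h) (hg : MemLp g 2 m) :
    ∫ s in (0 : ℝ)..t, I (C.P s h * g) = I (C.P t f * g) - I (f * g) := by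
  have hf := hC.memLp _ hfh.1
  have h1 := hC.gen.S_integral ht (hC.isLap_LG hfh)
  have h3 : ∀ (r : ℝ) (f : M →ₘ[m] ℝ) (hf : MemLp f 2 m),
      ⟪hC.gen.S r (hf.toLp (f : M → ℝ)), hg.toLp (g : M → ℝ)⟫_ℝ = I (C.P r f * g) := by
    intro r f hf
    rw [inner_val, ← hC.P_val r hf, toLp_val]
  have h4 : ⟪∫ s in (0 : ℝ)..t, hC.gen.S s (hfh.2.1.toLp (h : M → ℝ)), hg.toLp (g : M → ℝ)⟫_ℝ
      = ∫ s in (0 : ℝ)..t, ⟪hC.gen.S s (hfh.2.1.toLp (h : M → ℝ)), hg.toLp (g : M → ℝ)⟫_ℝ := by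
    rw [real_inner_comm]
    have h5 := (innerSL ℝ (hg.toLp (g : M → ℝ))).intervalIntegral_comp_comm
      ((hC.gen.S_cont (hfh.2.1.toLp (h : M → ℝ))).intervalIntegrable (μ := volume) 0 t)
    simp only [innerSL_apply_apply] at h5
    rw [← h5]
    congr 1
    ext s
    rw [real_inner_comm]
  rw [h1, inner_sub_left, h3 t f hf] at h4
  simp only [h3 _ h hfh.2.1] at h4
  rw [← h4, inner_val, toLp_val, toLp_val]

/-- `‖P_t f - f‖² ≤ t E(f)` -/
theorem P_est (ht : 0 ≤ t) (hf : f ∈ C.W) :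
    I ((C.P t f - f) ^ 2) ≤ t * I (C.Γ f f) := by
  have hf2 := hC.memLp _ hf
  rcases ht.eq_or_lt with h0 | h0
  · rw [← h0, hC.P_zero_time hf2, sub_self]
    have : I ((0 : M →ₘ[m] ℝ) ^ 2) = 0 := by
      rw [zero_pow two_ne_zero, I_zero]
    rw [this]; simp
  -- for `f` in the domain
  have key : ∀ f h : M →ₘ[m] ℝ, C.IsLap f h → I ((C.P t f - f) ^ 2) ≤ t * I (C.Γ f f) := by
    intro f h hfh
    have hf2 := hC.memLp _ hfh.1
    have hw : C.P t f - f ∈ C.W := hC.sub_mem (hC.P_memW t hfh.1) hfh.1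
    have h1 := hC.P_integral ht hfh (hC.memLp _ hw)
    have h2 : I ((C.P t f - f) ^ 2) = I (C.P t f * (C.P t f - f)) - I (f * (C.P t f - f)) := by
      rw [sq, sub_mul, I_sub (mem_mul_22 (hC.P_mem2 t hf2) (hC.memLp _ hw))
        (mem_mul_22 hf2 (hC.memLp _ hw))]
    rw [h2, ← h1]
    have h3 : ∀ s ∈ Set.Icc (0 : ℝ) t, I (C.P s h * (C.P t f - f)) ≤ I (C.Γ f f) := by
      intro s hs
      have h4 : I (C.P s h * (C.P t f - f)) = -I (C.Γ (C.P s f) (C.P t f - f)) := by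
        have := (hC.P_isLap_of s hfh).2.2 _ hw
        have h5 : I (C.Γ (C.P s f) (C.P t f - f)) = -I (C.P s h * (C.P t f - f)) := this
        rw [h5, neg_neg]
      have hs0 := hC.P_memW s hfh.1
      rw [h4, hC.Γ_sub_right hs0 (hC.P_memW t hfh.1) hfh.1,
        I_sub (hC.Γ_mem1 hs0 (hC.P_memW t hfh.1)) (hC.Γ_mem1 hs0 hfh.1)]
      -- `E(P_s f, P_t f) ≥ 0`
      have h5 : 0 ≤ I (C.Γ (C.P s f) (C.P t f)) := by
        have hs' : 0 ≤ (s + t) / 2 := by linarith [hs.1]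
        have e1 : C.IsLap (C.P s f) (C.P s h) := hC.P_isLap_of s hfh
        have e2 : I (C.Γ (C.P s f) (C.P t f)) = -I (C.P s h * C.P t f) := e1.2.2 _ (hC.P_memW t hfh.1)
        have e3 : C.IsLap (C.P ((s + t) / 2) f) (C.P ((s + t) / 2) h) := hC.P_isLap_of _ hfh
        have e4 : I (C.Γ (C.P ((s + t) / 2) f) (C.P ((s + t) / 2) f))
          = -I (C.P ((s + t) / 2) h * C.P ((s + t) / 2) f) := e3.2.2 _ e3.1
        have e5 : I (C.P s h * C.P t f) = I (C.P ((s + t) / 2) h * C.P ((s + t) / 2) f) := by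
          rw [hC.P_symm s hfh.2.1 (hC.P_mem2 t hf2), hC.P_P hs.1 h0.le hf2,
            hC.P_symm ((s + t) / 2) hfh.2.1 (hC.P_mem2 _ hf2), hC.P_P hs' hs' hf2, add_halves]
        rw [e2, e5, ← e4]
        exact hC.E_nonneg e3.1
      -- `E(P_s f, f) ≤ E(f)`
      have h6 : I (C.Γ (C.P s f) f) ≤ I (C.Γ f f) := by
        have e1 := hC.E_abs_le hs0 hfh.1
        have e2 := hC.P_E_le hs.1 hfh.1
        have e3 := Real.sqrt_le_sqrt e2
        calc I (C.Γ (C.P s f) f) ≤ |I (C.Γ (C.P s f) f)| := le_abs_self _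
          _ ≤ _ := e1
          _ ≤ √(I (C.Γ f f)) * √(I (C.Γ f f)) :=
              mul_le_mul_of_nonneg_right e3 (Real.sqrt_nonneg _)
          _ = _ := Real.mul_self_sqrt (hC.E_nonneg hfh.1)
      linarith
    have hint : IntervalIntegrable (fun s => I (C.P s h * (C.P t f - f))) volume 0 t := by
      apply Continuous.intervalIntegrable
      have h3 : ∀ (r : ℝ), ⟪hC.gen.S r (hfh.2.1.toLp (h : M → ℝ)),
          (hC.memLp _ hw).toLp ((C.P t f - f : M →ₘ[m] ℝ) : M → ℝ)⟫_ℝ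
          = I (C.P r h * (C.P t f - f)) := by
        intro r
        rw [inner_val, ← hC.P_val r hfh.2.1, toLp_val]
      simp_rw [← h3]
      exact (hC.gen.S_cont _).inner continuous_const
    have h7 := intervalIntegral.integral_mono_on ht hint
      (intervalIntegrable_const (c := I (C.Γ f f))) h3
    simpa using h7
  -- approximation by the resolvents
  have hl : ∀ n : ℕ, (0 : ℝ) < ((n : ℝ) + 1)⁻¹ := fun n => by positivity
  have h1 := hC.J_tendsto_W hf
  have hJ : ∀ n : ℕ, C.J ((n : ℝ) + 1)⁻¹ f ∈ C.W := fun n => hC.J_mem (hl n) hf2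
  have h2 := (hC.tendsto_energy hJ hf h1).const_mul t
  have h3 := hC.J_tendsto_L2 hf2
  have h4 : Tendsto (fun n : ℕ => (hC.memLp _ (hJ n)).toLp (C.J ((n : ℝ) + 1)⁻¹ f : M → ℝ)) atTop
      (𝓝 (hf2.toLp (f : M → ℝ))) := by
    rw [tendsto_val_iff]
    simpa only [toLp_val] using h3
  have h5 := ((((hC.gen.S t).continuous.tendsto _).comp h4).sub h4).norm.pow 2
  refine le_of_tendsto_of_tendsto' (b := atTop)
    (f := fun n : ℕ => I ((C.P t (C.J ((n : ℝ) + 1)⁻¹ f) - C.J ((n : ℝ) + 1)⁻¹ f) ^ 2)) ?_ h2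
    (fun n => key _ _ (hC.J_isLap (hl n) hf2))
  have e : ∀ (g : M →ₘ[m] ℝ) (hg : MemLp g 2 m),
      ‖hC.gen.S t (hg.toLp (g : M → ℝ)) - hg.toLp (g : M → ℝ)‖ ^ 2 = I ((C.P t g - g) ^ 2) := by
    intro g hg
    rw [norm_sq_val, sub_val, ← hC.P_val t hg, toLp_val]
  simp only [Function.comp, e] at h5
  exact h5

end IsDir

end Vale.Agent.P233
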