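import Vale.Agent.P233.H103.Semi3
import Vale.Agent.P233.Bd3.B4
import Vale.Agent.P233.Bd3.B3
import Mathlib.Analysis.SpecialFunctions.Complex.LogBounds

/-! The heat semigroup: `L¹` theory, gradient estimates, test functions. -/

open MeasureTheory Filter Topology
open scoped ENNReal NNReal InnerProductSpace

namespace Vale.Agent.P233

/-! ### abstract semigroup: general Euler schemes -/

namespace Sg.Gen

variable {H : Type*} [NormedAddCommGroup H] [InnerProductSpace ℝ H] [CompleteSpace H]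
variable {L : H → H → Prop} (G : Gen L)

include G in
/-- the implicit Euler scheme with arbitrary step sizes -/
theorem S_euler' {t : ℝ} {r : ℕ → ℝ} {k : ℕ → ℕ} (hr : ∀ n, 0 < r n)
    (hr0 : Tendsto r atTop (𝓝 0)) (hk : Tendsto (fun n => k n * r n) atTop (𝓝 t)) (x : H) :
    Tendsto (fun n : ℕ => (G.R (r n))^[k n] x) atTop (𝓝 (G.S t x)) := by
  have h0 : ∀ (n : ℕ) (x : H), (G.R (r n) ^ (k n)) x = (G.R (r n))^[k n] x := fun n x => by
    rw [FunLike.coe_pow_eq_iterate]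
  simp_rw [← h0]
  apply tendsto_of_dense (T := fun n : ℕ => G.R (r n) ^ (k n))
    (fun n x => by rw [h0]; exact G.R_iter_norm _ _ _) (G.S_norm t)
  intro ε hε
  obtain ⟨u, y, z, huy, hyz, hu⟩ := G.dense2 x hε
  refine ⟨u, hu, ?_⟩
  have h1 : Tendsto (fun n : ℕ => 2 * (k n * r n) * ‖z‖ * r n) atTop (𝓝 0) := by
    have := ((hk.const_mul 2).mul_const ‖z‖).mul hr0
    simpa using this
  have h2 : Tendsto (fun n : ℕ => G.S (k n * r n) u - (G.R (r n) ^ (k n)) u) atTop (𝓝 0) := by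
    rw [tendsto_zero_iff_norm_tendsto_zero]
    refine squeeze_zero (fun n => norm_nonneg _) (fun n => ?_) h1
    rw [h0]
    refine (G.euler_bound (hr n) huy hyz (k n)).trans (le_of_eq ?_)
    ring
  have h3 : Tendsto (fun n : ℕ => G.S (k n * r n) u) atTop (𝓝 (G.S t u)) :=
    ((G.S_cont u).tendsto t).comp hk
  have h4 := h3.sub h2
  simpa using h4

end Sg.Gen

variable {M : Type*} [MeasurableSpace M] {m : Measure M} {C : Calc m}

/-! ### products of `L²` convergent families -/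

section conv

variable {ι : Type*} {l : Filter ι} {X Y : ι → M →ₘ[m] ℝ} {x y a : M →ₘ[m] ℝ}

theorem tendsto_I_mul (hX : ∀ n, MemLp (X n) 2 m) (hx : MemLp x 2 m) (hY : ∀ n, MemLp (Y n) 2 m)
    (hy : MemLp y 2 m) (h1 : Tendsto (fun n => I ((X n - x) ^ 2)) l (𝓝 0))
    (h2 : Tendsto (fun n => I ((Y n - y) ^ 2)) l (𝓝 0)) :
    Tendsto (fun n => I (X n * Y n)) l (𝓝 (I (x * y))) := by
  have h3 : Tendsto (fun n => (hX n).toLp (X n : M → ℝ)) l (𝓝 (hx.toLp (x : M → ℝ))) := by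
    rw [tendsto_val_iff]
    simpa only [toLp_val] using h1
  have h4 : Tendsto (fun n => (hY n).toLp (Y n : M → ℝ)) l (𝓝 (hy.toLp (y : M → ℝ))) := by
    rw [tendsto_val_iff]
    simpa only [toLp_val] using h2
  have h5 := h3.inner h4 (𝕜 := ℝ)
  simpa only [inner_val, toLp_val] using h5

/-- multiplication by a bounded class -/
theorem I_mul_sq_le {K : ℝ} (ha : ∀ᵐ y ∂m, |a y| ≤ K) (hx : MemLp x 2 m) :
    I ((a * x) ^ 2) ≤ K ^ 2 * I (x ^ 2) := by
  have hat : MemLp a ∞ m := mem_top_iff.2 ⟨K, ha⟩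
  rw [← I_smul]
  refine I_mono (mem_sq (mem_mul_top hat hx)) (mem_smul _ (mem_sq hx)) ?_
  rw [le_iff_ae]
  filter_upwards [ha, sq_ae (a * x), mul_ae a x, smul_ae (x ^ 2) (K ^ 2), sq_ae x]
    with y h1 h2 h3 h4 h5
  rw [h2, h3, h4, h5, mul_pow]
  refine mul_le_mul_of_nonneg_right ?_ (sq_nonneg _)
  rw [← sq_abs]
  exact pow_le_pow_left₀ (abs_nonneg _) h1 2

theorem tendsto_bdd_mul {K : ℝ} (ha : ∀ᵐ y ∂m, |a y| ≤ K) (hX : ∀ n, MemLp (X n) 2 m)
    (hx : MemLp x 2 m) (h1 : Tendsto (fun n => I ((X n - x) ^ 2)) l (𝓝 0)) :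
    Tendsto (fun n => I ((a * X n - a * x) ^ 2)) l (𝓝 0) := by
  have h2 := h1.const_mul (K ^ 2)
  rw [mul_zero] at h2
  refine squeeze_zero (fun n => I_sq_nonneg _) (fun n => ?_) h2
  rw [← mul_sub]
  exact I_mul_sq_le ha (mem_sub (hX n) hx)

/-- squares of uniformly bounded `L²` convergent families -/
theorem tendsto_sq_sq {K : ℝ} (hb : ∀ n, ∀ᵐ y ∂m, |X n y| ≤ K) (hb' : ∀ᵐ y ∂m, |x y| ≤ K)
    (hX : ∀ n, MemLp (X n) 2 m)
    (hx : MemLp x 2 m) (h1 : Tendsto (fun n => I ((X n - x) ^ 2)) l (𝓝 0)) :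
    Tendsto (fun n => I ((X n ^ 2 - x ^ 2) ^ 2)) l (𝓝 0) := by
  have h2 := h1.const_mul ((2 * K) ^ 2)
  rw [mul_zero] at h2
  refine squeeze_zero (fun n => I_sq_nonneg _) (fun n => ?_) h2
  have h3 : X n ^ 2 - x ^ 2 = (X n + x) * (X n - x) := by ring
  rw [h3]
  refine I_mul_sq_le ?_ (mem_sub (hX n) hx)
  filter_upwards [hb n, hb', add_ae (X n) x] with y a1 a2 a3
  rw [a3]
  exact (abs_add_le _ _).trans (by linarith)

end conv

/-- Fatou for `L²` limits of nonnegative functions with bounded integrals. -/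
theorem L1_closed {u : ℕ → M →ₘ[m] ℝ} {f : M →ₘ[m] ℝ} {c : ℝ} (hu2 : ∀ n, MemLp (u n) 2 m)
    (hf2 : MemLp f 2 m) (h0 : ∀ n, 0 ≤ u n) (hu : ∀ n, MemLp (u n) 1 m) (hc : ∀ n, I (u n) ≤ c)
    (hlim : Tendsto (fun n => I ((u n - f) ^ 2)) atTop (𝓝 0)) :
    0 ≤ f ∧ MemLp f 1 m ∧ I f ≤ c := by
  obtain ⟨ns, -, hns⟩ := exists_subseq_of_I_sq hu2 hf2 hlim
  have h0' : ∀ᵐ x ∂m, ∀ n, 0 ≤ u n x := by
    rw [ae_all_iff]
    exact fun n => nonneg_iff_ae.1 (h0 n)
  have hf0 : ∀ᵐ x ∂m, 0 ≤ f x := by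
    filter_upwards [hns, h0'] with x h1 h2
    exact ge_of_tendsto h1 (Eventually.of_forall fun n => h2 (ns n))
  have hc0 : 0 ≤ c := (I_nonneg (h0 0)).trans (hc 0)
  have h1 : ∫⁻ x, ENNReal.ofReal (f x) ∂m ≤ ENNReal.ofReal c := by
    calc ∫⁻ x, ENNReal.ofReal (f x) ∂m
        = ∫⁻ x, liminf (fun n => ENNReal.ofReal (u (ns n) x)) atTop ∂m := by
          refine lintegral_congr_ae ?_
          filter_upwards [hns] with x h
          exact (((ENNReal.continuous_ofReal.tendsto _).comp h).liminf_eq).symm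
      _ ≤ liminf (fun n => ∫⁻ x, ENNReal.ofReal (u (ns n) x) ∂m) atTop :=
          lintegral_liminf_le' fun n =>
            ((u (ns n)).aestronglyMeasurable.aemeasurable).ennreal_ofReal
      _ ≤ ENNReal.ofReal c := by
          refine liminf_le_of_le (by isBoundedDefault) fun b hb => ?_
          obtain ⟨n, hn⟩ := hb.exists
          refine hn.trans ?_
          rw [← ofReal_integral_eq_lintegral_ofReal (int_of_mem (hu (ns n)))
            (nonneg_iff_ae.1 (h0 (ns n)))]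
          exact ENNReal.ofReal_le_ofReal (hc (ns n))
  have h2 : Integrable f m := by
    refine ⟨f.aestronglyMeasurable, ?_⟩
    rw [hasFiniteIntegral_iff_ofReal hf0]
    exact h1.trans_lt ENNReal.ofReal_lt_top
  refine ⟨nonneg_iff_ae.2 hf0, memLp_one_iff_integrable.2 h2, ?_⟩
  unfold I
  rw [integral_eq_lintegral_of_nonneg_ae hf0 f.aestronglyMeasurable]
  exact ENNReal.toReal_le_of_le_ofReal hc0 h1

/-- positive part of a class -/
noncomputable def pprt (f : M →ₘ[m] ℝ) : M →ₘ[m] ℝ :=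
  AEEqFun.comp (fun t => max t 0) (by fun_prop) f

theorem pprt_ae (f : M →ₘ[m] ℝ) : ∀ᵐ x ∂m, pprt f x = max (f x) 0 :=
  AEEqFun.coeFn_comp _ _ f

theorem pprt_nonneg (f : M →ₘ[m] ℝ) : 0 ≤ pprt f := by
  rw [nonneg_iff_ae]
  filter_upwards [pprt_ae f] with x h
  rw [h]; exact le_max_right _ _

theorem pprt_mem {p : ℝ≥0∞} {f : M →ₘ[m] ℝ} (hf : MemLp f p m) : MemLp (pprt f) p m := by
  refine mem_of_le hf ?_
  filter_upwards [pprt_ae f] with x h
  rw [h, abs_of_nonneg (le_max_right _ _)]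
  exact max_le (le_abs_self _) (abs_nonneg _)

theorem pprt_sub (f : M →ₘ[m] ℝ) : pprt f - pprt (-f) = f := by
  rw [eq_iff_ae]
  filter_upwards [sub_ae (pprt f) (pprt (-f)), pprt_ae f, pprt_ae (-f), neg_ae f]
    with x h1 h2 h3 h4
  rw [h1, h2, h3, h4]
  rcases le_total 0 (f x) with h | h
  · rw [max_eq_left h, max_eq_right (by linarith)]; ring
  · rw [max_eq_right h, max_eq_left (by linarith)]; ring

theorem pprt_add (f : M →ₘ[m] ℝ) : ∀ᵐ x ∂m, (pprt f + pprt (-f) : M →ₘ[m] ℝ) x = |f x| := by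
  filter_upwards [add_ae (pprt f) (pprt (-f)), pprt_ae f, pprt_ae (-f), neg_ae f]
    with x h1 h2 h3 h4
  rw [h1, h2, h3, h4]
  rcases le_total 0 (f x) with h | h
  · rw [max_eq_left h, max_eq_right (by linarith), abs_of_nonneg h]; ring
  · rw [max_eq_right h, max_eq_left (by linarith), abs_of_nonpos h]; ring

namespace IsDir

variable (hC : IsDir C) {s t lam : ℝ} {f g h : M →ₘ[m] ℝ}
include hC

theorem P_L1_nonneg (ht : 0 ≤ t) (hf : MemLp f 2 m) (hf1 : MemLp f 1 m) (h0 : 0 ≤ f) :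
    MemLp (C.P t f) 1 m ∧ I (C.P t f) ≤ I f := by
  have h := hC.P_mem_of (K := {g | 0 ≤ g ∧ MemLp g 1 m ∧ I g ≤ I f}) ht ?_ ?_ hf
    (show 0 ≤ f ∧ MemLp f 1 m ∧ I f ≤ I f from ⟨h0, hf1, le_rfl⟩)
  · exact h.2
  · intro u g hu2 huK hg hlim
    exact L1_closed hu2 hg (fun n => (huK n).1) (fun n => (huK n).2.1) (fun n => (huK n).2.2) hlim
  · intro lam hl _ g hgK hg
    have h1 := hC.J_L1 hl hg hgK.2.1 hgK.1
    exact ⟨hC.J_nonneg hl hg hgK.1, h1.1, h1.2.trans hgK.2.2⟩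

/-- `|P_t f| ≤ P_t f⁺ + P_t f⁻` and the `L¹` contraction -/
theorem P_L1 (ht : 0 ≤ t) (hf : MemLp f 2 m) (hf1 : MemLp f 1 m) :
    MemLp (C.P t f) 1 m ∧ ∫ x, |C.P t f x| ∂m ≤ ∫ x, |f x| ∂m := by
  have a1 := hC.P_L1_nonneg ht (pprt_mem hf) (pprt_mem hf1) (pprt_nonneg f)
  have a2 := hC.P_L1_nonneg ht (pprt_mem (mem_neg hf)) (pprt_mem (mem_neg hf1))
    (pprt_nonneg (-f))
  have a3 : C.P t f = C.P t (pprt f) - C.P t (pprt (-f)) := by
    rw [← hC.P_sub t (pprt_mem hf) (pprt_mem (mem_neg hf)), pprt_sub]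
  have b1 := hC.P_nonneg ht (pprt_mem hf) (pprt_nonneg f)
  have b2 := hC.P_nonneg ht (pprt_mem (mem_neg hf)) (pprt_nonneg (-f))
  rw [nonneg_iff_ae] at b1 b2
  have a4 : MemLp (C.P t f) 1 m := by
    rw [a3]; exact mem_sub a1.1 a2.1
  refine ⟨a4, ?_⟩
  have c1 : ∫ x, |f x| ∂m = I (pprt f) + I (pprt (-f)) := by
    rw [← I_add (pprt_mem hf1) (pprt_mem (mem_neg hf1))]
    exact integral_congr_ae (by filter_upwards [pprt_add f] with x h; rw [h])
  rw [c1]
  calc ∫ x, |C.P t f x| ∂m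
      ≤ ∫ x, (C.P t (pprt f) + C.P t (pprt (-f)) : M →ₘ[m] ℝ) x ∂m := by
        refine integral_mono_ae (int_of_mem a4).abs (int_of_mem (mem_add a1.1 a2.1)) ?_
        filter_upwards [b1, b2, add_ae (C.P t (pprt f)) (C.P t (pprt (-f))),
          sub_ae (C.P t (pprt f)) (C.P t (pprt (-f))), eq_iff_ae.1 a3] with x e1 e2 e3 e4 e5
        rw [e3, e5, e4]
        rw [abs_le]
        constructor <;> linarith
    _ = I (C.P t (pprt f)) + I (C.P t (pprt (-f))) := I_add a1.1 a2.1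
    _ ≤ _ := add_le_add a1.2 a2.2

/-- the heat equation tested with a function of the domain -/
theorem P_integral' (ht : 0 ≤ t) (hf : MemLp f 2 m) (hgh : C.IsLap g h) :
    ∫ s in (0 : ℝ)..t, I (C.P s f * h) = I (C.P t f * g) - I (f * g) := by
  have hg := hC.memLp _ hgh.1
  have h1 := hC.P_integral ht hgh hf
  rw [hC.P_symm t hg hf, mul_comm g, mul_comm g] at h1
  rw [← h1]
  congr 1
  ext s
  rw [hC.P_symm s hf hgh.2.1, mul_comm f]

theorem P_cont_I (hf : MemLp f 2 m) (hg : MemLp g 2 m) : Continuous fun s => I (C.P s f * g) := by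
  have h3 : ∀ (r : ℝ), ⟪hC.gen.S r (hf.toLp (f : M → ℝ)), hg.toLp (g : M → ℝ)⟫_ℝ
      = I (C.P r f * g) := by
    intro r
    rw [inner_val, ← hC.P_val r hf, toLp_val]
  simp_rw [← h3]
  exact (hC.gen.S_cont _).inner continuous_const

end IsDir

namespace IsGamma

variable (hC : IsGamma C) {κ : ℝ} (hB : C.BEi κ) [SigmaFinite m]
variable {s t lam r : ℝ} {f g h σ ψ : M →ₘ[m] ℝ}

include hC hB in
/-- conservation of mass -/
theorem P_mass (ht : 0 ≤ t) (hf : MemLp f 2 m) (hf1 : MemLp f 1 m) : I (C.P t f) = I f := by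
  have hD := hC.toIsDir
  obtain ⟨χ, Λ, hT, -, hb, hlim, hlb, hl0, -⟩ := hC.exists_cut hB
  have hlap : ∀ k, C.IsLap (χ k) (C.lap (χ k)) := fun k => hC.test_isLap (hT k)
  have h1 : ∀ k, ∫ s in (0 : ℝ)..t, I (C.P s f * C.lap (χ k))
      = I (C.P t f * χ k) - I (f * χ k) := fun k => hD.P_integral' ht hf (hlap k)
  have hone : ∀ᵐ x ∂m, (1 : M →ₘ[m] ℝ) x = 1 := one_ae
  have hlimR : ∀ g : M →ₘ[m] ℝ, MemLp g 1 m → Tendsto (fun k => I (g * χ k)) atTop (𝓝 (I g)) := by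
    intro g hg
    have := I_tendsto_of_bdd (u := χ) (v := 1) (G := g) hb (by
      filter_upwards [hlim, hone] with x a b; rw [b]; exact a) hg
    simpa [mul_comm] using this
  have h2 : Tendsto (fun k => I (C.P t f * χ k) - I (f * χ k)) atTop (𝓝 (I (C.P t f) - I f)) :=
    (hlimR _ (hD.P_L1 ht hf hf1).1).sub (hlimR _ hf1)
  have h3 : Tendsto (fun k => ∫ s in (0 : ℝ)..t, I (C.P s f * C.lap (χ k))) atTop
      (𝓝 (∫ s in (0 : ℝ)..t, (0 : ℝ))) := by
    apply intervalIntegral.tendsto_integral_filter_of_dominated_convergence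
      (fun _ => Λ * ∫ x, |f x| ∂m)
    · exact Eventually.of_forall fun k =>
        (hD.P_cont_I hf (hlap k).2.1).aestronglyMeasurable
    · refine Eventually.of_forall fun k => ae_of_all _ fun s hs => ?_
      rw [Set.uIoc_of_le ht] at hs
      have e1 := hD.P_L1 hs.1.le hf hf1
      have hΛ : ∀ᵐ x ∂m, 0 ≤ Λ := by
        filter_upwards [hlb k] with x hx using (abs_nonneg _).trans hx
      rw [Real.norm_eq_abs]
      calc |I (C.P s f * C.lap (χ k))| ≤ ∫ x, |(C.P s f * C.lap (χ k)) x| ∂m :=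
            abs_integral_le_integral_abs
        _ ≤ ∫ x, Λ * |C.P s f x| ∂m := by
            refine integral_mono_ae ?_ ((int_of_mem e1.1).abs.const_mul Λ) ?_
            · exact (int_of_mem (mem_top_mul e1.1 (mem_top_iff.2 ⟨Λ, hlb k⟩))).abs
            · filter_upwards [mul_ae (C.P s f) (C.lap (χ k)), hlb k] with x a b
              rw [a, abs_mul, mul_comm]
              exact mul_le_mul_of_nonneg_right b (abs_nonneg _)
        _ = Λ * ∫ x, |C.P s f x| ∂m := integral_const_mul _ _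
        _ ≤ Λ * ∫ x, |f x| ∂m := by
            by_cases hΛ0 : 0 ≤ Λ
            · exact mul_le_mul_of_nonneg_left e1.2 hΛ0
            · have hm : ∀ᵐ x ∂m, False := by
                filter_upwards [hΛ] with x hx using hΛ0 hx
              have hm0 : m = 0 := by
                rw [← ae_eq_bot]
                exact eventually_false_iff_eq_bot.1 hm
              simp [hm0]
    · exact intervalIntegrable_const
    · refine ae_of_all _ fun s hs => ?_
      rw [Set.uIoc_of_le ht] at hs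
      have e1 := hD.P_L1 hs.1.le hf hf1
      have := I_tendsto_of_bdd (u := fun k => C.lap (χ k)) (v := 0) (G := C.P s f) hlb (by
        filter_upwards [hl0, zero_ae (M := M) (m := m)] with x a b; rw [b]; exact a) e1.1
      simpa [mul_comm, I_zero] using this
  rw [intervalIntegral.integral_zero] at h3
  simp_rw [h1] at h3
  have h4 := tendsto_nhds_unique h2 h3
  linarith

include hC hB in
omit [SigmaFinite m] in
/-- one step of the gradient estimate -/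
theorem J_gradW (hr : 0 < r) (hr2 : 0 < 1 + 2 * κ * r) (hf : f ∈ C.W) (h0 : 0 ≤ ψ)
    (h2 : MemLp ψ 2 m) (ht : MemLp ψ ∞ m) :
    I (ψ * C.Γ (C.J r f) (C.J r f))
      ≤ (1 + 2 * κ * r)⁻¹ * I (C.J (r / (1 + 2 * κ * r)) ψ * C.Γ f f) := by
  have hμ : 0 < r⁻¹ + 2 * κ := by
    have : r⁻¹ + 2 * κ = (1 + 2 * κ * r) / r := by field_simp
    rw [this]; positivity
  have h := key0 hC hB hr hμ hf h0 h2 ht
  have e1 : r⁻¹ + 2 * κ - r⁻¹ - 2 * κ = 0 := by ring
  have e2 : (r⁻¹ + 2 * κ)⁻¹ = r / (1 + 2 * κ * r) := by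
    have : r⁻¹ + 2 * κ = (1 + 2 * κ * r) / r := by field_simp
    rw [this, inv_div]
  rw [e1, zero_mul, add_zero, e2, mul_comm _ ψ] at h
  have e3 : r⁻¹ + 2 * κ = (1 + 2 * κ * r) * r⁻¹ := by field_simp
  rw [e3] at h
  set A := I (ψ * C.Γ (C.J r f) (C.J r f))
  set D := I (C.J (r / (1 + 2 * κ * r)) ψ * C.Γ f f)
  have h3 : (1 + 2 * κ * r) * A ≤ D := by
    have hri : 0 < r⁻¹ := inv_pos.2 hr
    have h4 : r⁻¹ * ((1 + 2 * κ * r) * A) ≤ r⁻¹ * D := by linarith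
    exact le_of_mul_le_mul_left h4 hri
  rw [inv_mul_eq_div, le_div_iff₀ hr2]
  linarith

include hC hB in
omit [SigmaFinite m] in
theorem J_iter_gradW (hr : 0 < r) (hr2 : 0 < 1 + 2 * κ * r) (h0 : 0 ≤ ψ)
    (h2 : MemLp ψ 2 m) (ht : MemLp ψ ∞ m) (n : ℕ) : ∀ f ∈ C.W,
    (0 ≤ (C.J (r / (1 + 2 * κ * r)))^[n] ψ ∧ MemLp ((C.J (r / (1 + 2 * κ * r)))^[n] ψ) 2 m ∧
      MemLp ((C.J (r / (1 + 2 * κ * r)))^[n] ψ) ∞ m) ∧
    I (ψ * C.Γ ((C.J r)^[n] f) ((C.J r)^[n] f))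
      ≤ ((1 + 2 * κ * r)⁻¹) ^ n * I ((C.J (r / (1 + 2 * κ * r)))^[n] ψ * C.Γ f f) := by
  have hD := hC.toIsDir
  have hr' : 0 < r / (1 + 2 * κ * r) := div_pos hr hr2
  induction n with
  | zero => exact fun f hf => ⟨⟨h0, h2, ht⟩, by simp⟩
  | succ n ih =>
    intro f hf
    have hJf := hD.J_mem hr (hC.memLp _ hf)
    obtain ⟨⟨a1, a2, a3⟩, a4⟩ := ih _ hJf
    have e1 : (C.J r)^[n + 1] f = (C.J r)^[n] (C.J r f) := Function.iterate_succ_apply _ _ _
    have e2 : (C.J (r / (1 + 2 * κ * r)))^[n + 1] ψ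
        = C.J (r / (1 + 2 * κ * r)) ((C.J (r / (1 + 2 * κ * r)))^[n] ψ) :=
      Function.iterate_succ_apply' _ _ _
    rw [e1, e2]
    obtain ⟨B, hB0⟩ := mem_top_iff.1 a3
    refine ⟨⟨hD.J_nonneg hr' a2 a1, hD.J_mem2 hr' a2, mem_top_iff.2 ⟨B, hD.J_bdd hr' a2 hB0⟩⟩, ?_⟩
    have a5 := J_gradW hC hB hr hr2 hf a1 a2 a3
    have hpos : 0 ≤ ((1 + 2 * κ * r)⁻¹) ^ n := by positivity
    calc _ ≤ _ := a4
      _ ≤ ((1 + 2 * κ * r)⁻¹) ^ n * ((1 + 2 * κ * r)⁻¹
          * I (C.J (r / (1 + 2 * κ * r)) ((C.J (r / (1 + 2 * κ * r)))^[n] ψ) * C.Γ f f)) :=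
          mul_le_mul_of_nonneg_left a5 hpos
      _ = _ := by rw [pow_succ]; ring

/-- `(1 + a/(n+1))^{-(n+1)} → e^{-a}` -/
theorem tendsto_inv_pow (a : ℝ) :
    Tendsto (fun n : ℕ => ((1 + a / ((n : ℝ) + 1))⁻¹) ^ (n + 1)) atTop (𝓝 (Real.exp (-a))) := by
  have h1 := (tendsto_add_atTop_iff_nat (f := fun n : ℕ => (1 + a / (n : ℝ)) ^ n) 1).2
    (Real.tendsto_one_add_div_pow_exp a)
  have h2 := h1.inv₀ (Real.exp_pos a).ne'
  rw [← Real.exp_neg] at h2
  refine h2.congr fun n => ?_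
  push_cast
  rw [inv_pow]

include hC hB in
omit [SigmaFinite m] in
/-- the gradient estimate, integrated form -/
theorem P_gradW (ht : 0 ≤ t) (hf : f ∈ C.W) (h0 : 0 ≤ σ) (h2 : MemLp σ 2 m) (hσ : MemLp σ ∞ m) :
    I (σ * C.Γ (C.P t f) (C.P t f)) ≤ Real.exp (-(2 * κ * t)) * I (C.P t σ * C.Γ f f) := by
  have hD := hC.toIsDir
  have hf2 := hC.memLp _ hf
  rcases ht.eq_or_lt with ht0 | ht0
  · rw [← ht0, hD.P_zero_time hf2, hD.P_zero_time h2]
    simp
  obtain ⟨B, hB0⟩ := mem_top_iff.1 hσ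
  -- the steps
  set r : ℕ → ℝ := fun n => t / ((n : ℝ) + 1) with hr
  have hrpos : ∀ n, 0 < r n := fun n => by rw [hr]; positivity
  have hr0 : Tendsto r atTop (𝓝 0) := by
    have h := tendsto_inv_succ.const_mul t
    rw [mul_zero] at h
    exact h
  set r' : ℕ → ℝ := fun n => r n / (1 + 2 * κ * r n) with hr'
  have hden : Tendsto (fun n => 1 + 2 * κ * r n) atTop (𝓝 1) := by
    have h := (hr0.const_mul (2 * κ)).const_add 1
    simpa using h
  have hev : ∀ᶠ n in atTop, 0 < 1 + 2 * κ * r n := hden.eventually (lt_mem_nhds one_pos)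
  obtain ⟨N, hN⟩ := eventually_atTop.1 hev
  have hr'0 : Tendsto r' atTop (𝓝 0) := by
    have h : Tendsto (fun n => r n / (1 + 2 * κ * r n)) atTop (𝓝 (0 / 1)) :=
      hr0.div hden one_ne_zero
    rw [zero_div] at h
    exact h
  have hk : Tendsto (fun n : ℕ => ((n + 1 : ℕ) : ℝ) * r' n) atTop (𝓝 t) := by
    have h : Tendsto (fun n : ℕ => t / (1 + 2 * κ * r n)) atTop (𝓝 t) := by
      have h : Tendsto (fun n : ℕ => t / (1 + 2 * κ * r n)) atTop (𝓝 (t / 1)) :=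
        (tendsto_const_nhds (x := t)).div hden one_ne_zero
      rwa [div_one] at h
    refine h.congr fun n => ?_
    rw [hr', hr]
    push_cast
    field_simp
  -- the sequences from `N` on
  have hineq : ∀ n, I (σ * C.Γ ((C.J (r (n + N)))^[n + N + 1] f) ((C.J (r (n + N)))^[n + N + 1] f))
      ≤ ((1 + 2 * κ * r (n + N))⁻¹) ^ (n + N + 1)
        * I ((C.J (r' (n + N)))^[n + N + 1] σ * C.Γ f f) := fun n =>
    (J_iter_gradW hC hB (hrpos _) (hN _ (Nat.le_add_left _ _)) h0 h2 hσ (n + N + 1) f hf).2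
  have hr'pos : ∀ n, 0 < r' (n + N) := fun n => div_pos (hrpos _) (hN _ (Nat.le_add_left _ _))
  have hψ2 : ∀ n, MemLp ((C.J (r' (n + N)))^[n + N + 1] σ) 2 m := fun n =>
    (J_iter_gradW hC hB (hrpos _) (hN _ (Nat.le_add_left _ _)) h0 h2 hσ (n + N + 1) f hf).1.2.1
  have hψB : ∀ n, ∀ᵐ x ∂m, |(C.J (r' (n + N)))^[n + N + 1] σ x| ≤ B := by
    intro n
    have h5 : ∀ k : ℕ, MemLp ((C.J (r' (n + N)))^[k] σ) 2 m ∧
        ∀ᵐ x ∂m, |(C.J (r' (n + N)))^[k] σ x| ≤ B := fun k => by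
      induction k with
      | zero => exact ⟨h2, hB0⟩
      | succ k ih =>
        rw [Function.iterate_succ_apply']
        exact ⟨hD.J_mem2 (hr'pos n) ih.1, hD.J_bdd (hr'pos n) ih.1 ih.2⟩
    exact (h5 _).2
  -- convergence of the weights
  have hval : ∀ n, ((hD.gen.R (r' (n + N)))^[n + N + 1] (h2.toLp (σ : M → ℝ))).1
      = (C.J (r' (n + N)))^[n + N + 1] σ := by
    intro n
    have h5 : ∀ k : ℕ, MemLp ((C.J (r' (n + N)))^[k] σ) 2 m ∧
        ((hD.gen.R (r' (n + N)))^[k] (h2.toLp (σ : M → ℝ))).1 = (C.J (r' (n + N)))^[k] σ := by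
      intro k
      induction k with
      | zero => exact ⟨h2, toLp_val h2⟩
      | succ k ih =>
        obtain ⟨ih1, ih2⟩ := ih
        rw [Function.iterate_succ_apply', Function.iterate_succ_apply']
        refine ⟨hD.J_mem2 (hr'pos n) ih1, ?_⟩
        rw [← hD.R_val (hr'pos n) ih1]
        have h3 : (hD.gen.R (r' (n + N)))^[k] (h2.toLp (σ : M → ℝ))
            = ih1.toLp ((C.J (r' (n + N)))^[k] σ : M → ℝ) :=
          Subtype.ext (by rw [toLp_val]; exact ih2)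
        rw [h3]
    exact (h5 _).2
  have hψlim : Tendsto (fun n => I (((C.J (r' (n + N)))^[n + N + 1] σ - C.P t σ) ^ 2))
      atTop (𝓝 0) := by
    have h5 := hD.gen.S_euler' (t := t) (r := fun n => r' (n + N)) (k := fun n => n + N + 1)
      hr'pos (hr'0.comp (tendsto_add_atTop_nat N)) (hk.comp (tendsto_add_atTop_nat N))
      (h2.toLp (σ : M → ℝ))
    have h6 := tendsto_val_iff.1 h5
    rw [← hD.P_val t h2] at h6
    refine h6.congr fun n => ?_
    rw [hval n]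
  obtain ⟨ns, hns, hae⟩ := exists_subseq_of_I_sq hψ2 (hD.P_mem2 t h2) hψlim
  have hR1 : Tendsto (fun n => I ((C.J (r' (ns n + N)))^[ns n + N + 1] σ * C.Γ f f)) atTop
      (𝓝 (I (C.P t σ * C.Γ f f))) :=
    I_tendsto_of_bdd (fun n => hψB (ns n)) hae (hC.mem1 _ hf)
  have hcoef : Tendsto (fun n => ((1 + 2 * κ * r (ns n + N))⁻¹) ^ (ns n + N + 1)) atTop
      (𝓝 (Real.exp (-(2 * κ * t)))) := by
    have h5 := tendsto_inv_pow (2 * κ * t)
    have h6 : Tendsto (fun n => ns n + N) atTop atTop :=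
      (tendsto_add_atTop_nat N).comp hns.tendsto_atTop
    refine (h5.comp h6).congr fun n => ?_
    simp only [Function.comp, hr]
    congr 3
    ring
  -- convergence of the left side
  obtain ⟨hJW, hJlim⟩ := hD.P_eulerW ht0 hf
  have hL1 : Tendsto (fun n => I (σ * C.Γ ((C.J (r (ns n + N)))^[ns n + N + 1] f)
      ((C.J (r (ns n + N)))^[ns n + N + 1] f))) atTop (𝓝 (I (σ * C.Γ (C.P t f) (C.P t f)))) := by
    have h6 : Tendsto (fun n => ns n + N) atTop atTop :=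
      (tendsto_add_atTop_nat N).comp hns.tendsto_atTop
    have hTW : C.TW (fun n => (C.J (r (ns n + N)))^[ns n + N + 1] f) (C.P t f) :=
      ⟨fun n => hJW _ (hrpos _) _, hD.P_memW t hf, hJlim.comp h6⟩
    exact hD.TW_Γ (Tb.const hσ) hTW hTW
  exact le_of_tendsto_of_tendsto' hL1 (hcoef.mul hR1) (fun n => hineq (ns n))

include hC hB in
omit [SigmaFinite m] in
/-- `Γ(P_t f) ≤ e^{-2κt} sup Γ f` -/
theorem P_grad (ht : 0 ≤ t) (hf : f ∈ C.W) {L : ℝ} (hL : ∀ᵐ x ∂m, C.Γ f f x ≤ L) :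
    ∀ᵐ x ∂m, C.Γ (C.P t f) (C.P t f) x ≤ Real.exp (-(2 * κ * t)) * L := by
  have hD := hC.toIsDir
  by_cases hL0 : 0 ≤ L
  · refine le_const_of_forall (hC.mem1 _ (hD.P_memW t hf)) (by positivity) ?_
    intro ψ h0 h2 h1 htop
    have h3 := P_gradW hC hB ht hf h0 h2 htop
    rw [mul_comm ψ] at h3
    refine h3.trans ?_
    rw [mul_assoc (Real.exp (-(2 * κ * t)))]
    refine mul_le_mul_of_nonneg_left ?_ (Real.exp_pos _).le
    have hP0 := hD.P_nonneg ht h2 h0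
    have hP1 := hD.P_L1_nonneg ht h2 h1 h0
    have hPt := hD.P_memTop ht h2 htop
    calc I (C.P t ψ * C.Γ f f) ≤ I (L • C.P t ψ) := by
          refine I_mono (mem_mul_top hPt (hC.mem1 _ hf)) (mem_smul _ hP1.1) ?_
          rw [le_iff_ae]
          rw [nonneg_iff_ae] at hP0
          filter_upwards [hL, mul_ae (C.P t ψ) (C.Γ f f), smul_ae (C.P t ψ) L, hP0] with x a b c d
          rw [b, c, mul_comm]
          exact mul_le_mul_of_nonneg_right a d
      _ = L * I (C.P t ψ) := I_smul _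
      _ ≤ L * I ψ := mul_le_mul_of_nonneg_left hP1.2 hL0
  · filter_upwards [hL, hD.Γ_nonneg_ae hf] with x a b
    exact absurd (b.trans a) hL0

include hC hB in
omit [SigmaFinite m] in
/-- `Γ(P_t f) ≤ e^{-2κt} P_t Γ f` for Lipschitz `f` -/
theorem P_Γ_le_P (ht : 0 ≤ t) (hf : f ∈ C.W) (hf' : MemLp (C.Γ f f) ∞ m) :
    C.Γ (C.P t f) (C.P t f) ≤ Real.exp (-(2 * κ * t)) • C.P t (C.Γ f f) := by
  have hD := hC.toIsDir
  have hΓ2 : MemLp (C.Γ f f) 2 m := hD.Γ_mem2 hf hf' hf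
  obtain ⟨L, hL⟩ := mem_top_iff.1 hf'
  have hPW := hD.P_memW t hf
  have hPL := P_grad hC hB ht hf (L := L) (by filter_upwards [hL] with x a using (abs_le.1 a).2)
  have hPtop : MemLp (C.Γ (C.P t f) (C.P t f)) ∞ m := by
    refine mem_top_iff.2 ⟨Real.exp (-(2 * κ * t)) * L, ?_⟩
    filter_upwards [hPL, hD.Γ_nonneg_ae hPW] with x a b
    rwa [abs_of_nonneg b]
  have hP2 : MemLp (C.Γ (C.P t f) (C.P t f)) 2 m := hD.Γ_mem2 hPW hPtop hPW
  have h := nonneg_of_forall_L2 (F := Real.exp (-(2 * κ * t)) • C.P t (C.Γ f f)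
    - C.Γ (C.P t f) (C.P t f)) (mem_sub (mem_smul _ (hD.P_mem2 t hΓ2)) hP2) ?_
  · exact sub_nonneg.1 h
  · intro ψ h0 h2 htop
    have h3 := P_gradW hC hB ht hf h0 h2 htop
    rw [sub_mul, I_sub (mem_mul_22 (mem_smul _ (hD.P_mem2 t hΓ2)) h2) (mem_mul_22 hP2 h2),
      smul_mul_assoc, I_smul, hD.P_symm t hΓ2 h2, mul_comm (C.Γ f f), mul_comm (C.Γ _ _) ψ]
    linarith

end IsGamma

end Vale.Agent.P233
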